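import Vale.Agent.P210.R2.H53.RSpec

open MeasureTheory Metric Set Filter Topology
open scoped NNReal ENNReal Manifold

set_option maxSynthPendingDepth 3

noncomputable section

namespace Vale.Agent.P210.R2.H597

open H53

/-- abstract first order calculus of Lipschitz functions on a metric measure space:
`G u v` is the inner product of the gradients, `D u p` is differentiability of `u` at `p` -/
structure Cal {X : Type} [MetricSpace X] [MeasurableSpace X] (μ : Measure X)
    (G : (X → ℝ) → (X → ℝ) → X → ℝ) (D : (X → ℝ) → X → Prop) : Prop where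
  fin : ∀ S : Set X, IsCompact S → μ S < ⊤
  pos : ∀ U : Set X, IsOpen U → U.Nonempty → 0 < μ U
  rad : ∀ u : X → ℝ, LocallyLipschitz u → ∀ᵐ p ∂μ, D u p
  meas : ∀ u v : X → ℝ, Continuous u → Continuous v → Measurable (G u v)
  symm : ∀ (u v : X → ℝ) (p : X), G u v p = G v u p
  nonneg : ∀ (u : X → ℝ) (p : X), 0 ≤ G u u p
  cs : ∀ (u v : X → ℝ) (p : X), G u v p ^ 2 ≤ G u u p * G v v p
  congr : ∀ (u v w : X → ℝ) (p : X), u =ᶠ[𝓝 p] v → G u w p = G v w p
  add : ∀ (u v w : X → ℝ) (p : X), D u p → D v p →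
    G (fun q => u q + v q) w p = G u w p + G v w p
  mul : ∀ (u v w : X → ℝ) (p : X), D u p → D v p →
    G (fun q => u q * v q) w p = u p * G v w p + v p * G u w p
  smul : ∀ (c : ℝ) (u w : X → ℝ) (p : X), G (fun q => c * u q) w p = c * G u w p
  const : ∀ (c : ℝ) (w : X → ℝ) (p : X), G (fun _ => c) w p = 0
  chain : ∀ (φ : ℝ → ℝ) (u w : X → ℝ) (p : X), D u p → DifferentiableAt ℝ φ (u p) →
    G (fun q => φ (u q)) w p = deriv φ (u p) * G u w p
  lip : ∀ (C : ℝ) (u : X → ℝ) (p : X), 0 ≤ C → (∀ᶠ q in 𝓝 p, |u q - u p| ≤ C * dist q p) →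
    G u u p ≤ C ^ 2
  dist_one : ∀ x p : X, x ≠ p → D (fun q => dist x q) p →
    G (fun q => dist x q) (fun q => dist x q) p = 1

/-- the calculus of a Riemannian manifold -/
theorem cal_of (hA : Stmt.CALA) (hB : Stmt.CALB) : Stmt.ForR fun E _ _ _ _ _ M _ _ _ _ _ _ _ _ _ =>
    ∀ μ : Measure M, IsVol E μ →
      Cal μ (Gam E) (fun u p => MDifferentiableAt 𝓘(ℝ, E) 𝓘(ℝ, ℝ) u p) := by
  intro E _ _ _ _ _ M _ _ _ _ _ _ _ _ _ hn μ hμ
  obtain ⟨a1, a2, a3, a4, -⟩ := hA E M hn μ hμ
  obtain ⟨-, b1, b2, b3, b4, b5, b6, b7, b8, b9, b10⟩ := hB E M hn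
  exact ⟨a1, a2, a3, a4, b1, b2, b3, b4, fun u v w p hu hv => (b5 u v w p hu hv).1,
    fun u v w p hu hv => (b5 u v w p hu hv).2, b6, b7, b8, b9, b10⟩

namespace Cal

variable {X : Type} [MetricSpace X] [MeasurableSpace X] {μ : Measure X}
  {G : (X → ℝ) → (X → ℝ) → X → ℝ} {D : (X → ℝ) → X → Prop}

theorem radL (h : Cal μ G D) {u : X → ℝ} {C : ℝ≥0} (hu : LipschitzWith C u) : ∀ᵐ p ∂μ, D u p :=
  h.rad u hu.locallyLipschitz

theorem lipL (h : Cal μ G D) {u : X → ℝ} {C : ℝ≥0} (hu : LipschitzWith C u) (p : X) :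
    G u u p ≤ (C : ℝ) ^ 2 :=
  h.lip C u p C.2 (Eventually.of_forall fun q => by
    have := hu.dist_le_mul q p
    rwa [Real.dist_eq] at this)

theorem abs_le (h : Cal μ G D) {u v : X → ℝ} {A B : ℝ≥0} (hu : LipschitzWith A u)
    (hv : LipschitzWith B v) (p : X) : |G u v p| ≤ A * B := by
  have h1 := h.cs u v p
  have h2 := h.lipL hu p
  have h3 := h.lipL hv p
  have h4 : G u v p ^ 2 ≤ ((A : ℝ) * B) ^ 2 := by
    calc G u v p ^ 2 ≤ G u u p * G v v p := h1
      _ ≤ (A : ℝ) ^ 2 * (B : ℝ) ^ 2 :=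
        mul_le_mul h2 h3 (h.nonneg v p) (by positivity)
      _ = _ := by ring
  exact abs_le_of_sq_le_sq h4 (by positivity)

theorem congr' (h : Cal μ G D) {u v w : X → ℝ} {p : X} (he : v =ᶠ[𝓝 p] w) :
    G u v p = G u w p := by
  rw [h.symm u v, h.symm u w, h.congr v w u p he]

theorem zero_of (h : Cal μ G D) {u v : X → ℝ} {p : X} (c : ℝ) (he : ∀ᶠ q in 𝓝 p, v q = c) :
    G u v p = 0 := by
  rw [h.symm, h.congr v (fun _ => c) u p he, h.const]

theorem zero_of_notMem (h : Cal μ G D) {u v : X → ℝ} {p : X} (hp : p ∉ tsupport v) :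
    G u v p = 0 :=
  h.zero_of 0 (notMem_tsupport_iff_eventuallyEq.1 hp)

theorem add' (h : Cal μ G D) {u v w : X → ℝ} {p : X} (hu : D u p) (hv : D v p) :
    G w (fun q => u q + v q) p = G w u p + G w v p := by
  rw [h.symm, h.add u v w p hu hv, h.symm u, h.symm v]

theorem smul' (h : Cal μ G D) (c : ℝ) (u w : X → ℝ) (p : X) :
    G w (fun q => c * u q) p = c * G w u p := by
  rw [h.symm, h.smul c u w p, h.symm u]

theorem mul' (h : Cal μ G D) {u v w : X → ℝ} {p : X} (hu : D u p) (hv : D v p) :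
    G w (fun q => u q * v q) p = u p * G w v p + v p * G w u p := by
  rw [h.symm, h.mul u v w p hu hv, h.symm u, h.symm v]

theorem chain' (h : Cal μ G D) {φ : ℝ → ℝ} {u w : X → ℝ} {p : X} (hu : D u p)
    (hφ : DifferentiableAt ℝ φ (u p)) : G w (fun q => φ (u q)) p = deriv φ (u p) * G w u p := by
  rw [h.symm, h.chain φ u w p hu hφ, h.symm u]

theorem integrable_of (h : Cal μ G D) {f : X → ℝ} (hf : AEStronglyMeasurable f μ) (C : ℝ)
    (hC : ∀ p, |f p| ≤ C) {S : Set X} (hS : IsCompact S) (h0 : ∀ p ∉ S, f p = 0) :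
    Integrable f μ := by
  rw [← integrableOn_iff_integrable_of_support_subset (s := S)
    (fun p hp => by by_contra hc; exact hp (h0 p hc))]
  refine ⟨hf.restrict, ?_⟩
  refine HasFiniteIntegral.restrict_of_bounded (C := C) (h.fin S hS) ?_
  exact Eventually.of_forall fun p => by rw [Real.norm_eq_abs]; exact hC p

theorem int_G [BorelSpace X] (h : Cal μ G D) {u v : X → ℝ} {A : ℝ≥0} (hu : LipschitzWith A u)
    (hv : LC v) : Integrable (G u v) μ := by
  obtain ⟨⟨B, hB⟩, hc⟩ := hv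
  exact h.integrable_of (h.meas u v hu.continuous hB.continuous).aestronglyMeasurable (A * B)
    (h.abs_le hu hB) hc fun p hp => h.zero_of_notMem hp

theorem int_LC [OpensMeasurableSpace X] (h : Cal μ G D) {v : X → ℝ} (hv : Continuous v)
    (hc : HasCompactSupport v) : Integrable v μ := by
  obtain ⟨C, hC⟩ := hc.exists_bound_of_continuous hv
  exact h.integrable_of hv.measurable.aestronglyMeasurable C (fun p => by simpa using hC p) hc
    fun p hp => image_eq_zero_of_notMem_tsupport hp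

theorem integral_add [BorelSpace X] (h : Cal μ G D) {u v w : X → ℝ} {A : ℝ≥0}
    (hu : LipschitzWith A u) (hv : LC v) (hw : LC w) :
    ∫ q, G u (fun p => v p + w p) q ∂μ = ∫ q, G u v q ∂μ + ∫ q, G u w q ∂μ := by
  rw [← MeasureTheory.integral_add (h.int_G hu hv) (h.int_G hu hw)]
  refine integral_congr_ae ?_
  obtain ⟨⟨B, hB⟩, -⟩ := hv
  obtain ⟨⟨C, hC⟩, -⟩ := hw
  filter_upwards [h.radL hB, h.radL hC] with q h1 h2 using h.add' h1 h2

end Cal

/-- `LC` is stable under sums -/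
theorem LC_add {X : Type} [MetricSpace X] {u v : X → ℝ} (hu : LC u) (hv : LC v) :
    LC fun p => u p + v p := by
  obtain ⟨⟨A, hA⟩, ha⟩ := hu
  obtain ⟨⟨B, hB⟩, hb⟩ := hv
  exact ⟨⟨A + B, hA.add hB⟩, ha.add hb⟩

theorem LC_neg {X : Type} [MetricSpace X] {u : X → ℝ} (hu : LC u) : LC fun p => -u p := by
  obtain ⟨⟨A, hA⟩, ha⟩ := hu
  exact ⟨⟨A, hA.neg⟩, ha.neg⟩

theorem LC_sub {X : Type} [MetricSpace X] {u v : X → ℝ} (hu : LC u) (hv : LC v) :
    LC fun p => u p - v p := by
  simpa [sub_eq_add_neg] using LC_add hu (LC_neg hv)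

theorem LC_zero {X : Type} [MetricSpace X] : LC fun _ : X => (0 : ℝ) :=
  ⟨⟨0, LipschitzWith.const' 0⟩, HasCompactSupport.zero⟩

theorem LC_sum {X : Type} [MetricSpace X] {ι : Type} (s : Finset ι) {u : ι → X → ℝ}
    (hu : ∀ i ∈ s, LC (u i)) : LC fun p => ∑ i ∈ s, u i p := by
  classical
  induction s using Finset.induction_on with
  | empty => simpa using LC_zero
  | insert a s ha ih =>
    simp only [Finset.sum_insert ha]
    exact LC_add (hu a (Finset.mem_insert_self a s))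
      (ih fun i hi => hu i (Finset.mem_insert_of_mem hi))

/-- product of a compactly supported Lipschitz function and a bounded Lipschitz function -/
theorem LC_mul {X : Type} [MetricSpace X] {u v : X → ℝ} {A B : ℝ≥0} {a b : ℝ}
    (hu : LipschitzWith A u) (hv : LipschitzWith B v) (ha : ∀ p, |u p| ≤ a) (hb : ∀ p, |v p| ≤ b)
    (hc : HasCompactSupport u) : LC fun p => u p * v p := by
  refine ⟨⟨_, LipschitzWith.of_dist_le' (K := a * B + b * A) fun p q => ?_⟩, hc.mul_right⟩
  have h1 := hu.dist_le_mul p q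
  have h2 := hv.dist_le_mul p q
  rw [Real.dist_eq] at *
  have e : u p * v p - u q * v q = u p * (v p - v q) + v q * (u p - u q) := by ring
  rw [e]
  calc |u p * (v p - v q) + v q * (u p - u q)| ≤ |u p| * |v p - v q| + |v q| * |u p - u q| := by
        rw [← abs_mul, ← abs_mul]; exact abs_add_le _ _
    _ ≤ a * (B * dist p q) + b * (A * dist p q) := by
        gcongr
        · exact (abs_nonneg _).trans (ha p)
        · exact ha p
        · exact (abs_nonneg _).trans (hb q)
        · exact hb q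
    _ = (a * B + b * A) * dist p q := by ring

theorem Cal.integral_sum {X : Type} [MetricSpace X] [MeasurableSpace X] [BorelSpace X]
    {μ : Measure X} {G : (X → ℝ) → (X → ℝ) → X → ℝ} {D : (X → ℝ) → X → Prop} (h : Cal μ G D)
    {u : X → ℝ} {A : ℝ≥0} (hu : LipschitzWith A u) {ι : Type} (s : Finset ι) {v : ι → X → ℝ}
    (hv : ∀ i ∈ s, LC (v i)) :
    ∫ q, G u (fun p => ∑ i ∈ s, v i p) q ∂μ = ∑ i ∈ s, ∫ q, G u (v i) q ∂μ := by
  classical
  induction s using Finset.induction_on with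
  | empty =>
    simp only [Finset.sum_empty]
    rw [integral_eq_zero_of_ae]
    exact Eventually.of_forall fun q => h.zero_of 0 (Eventually.of_forall fun _ => rfl)
  | insert a s ha ih =>
    simp only [Finset.sum_insert ha]
    have h1 : ∀ i ∈ s, LC (v i) := fun i hi => hv i (Finset.mem_insert_of_mem hi)
    rw [h.integral_add hu (hv a (Finset.mem_insert_self a s)) (LC_sum s h1), ih h1]

end Vale.Agent.P210.R2.H597
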