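import Vale.Agent.P210.R2.H597.Mass
import Mathlib.Topology.Algebra.Module.Cardinality

open MeasureTheory Metric Set Filter Topology
open scoped NNReal ENNReal Manifold

set_option maxSynthPendingDepth 3

noncomputable section

namespace Vale.Agent.P210.R2.H597

open H53

variable {X : Type} [MetricSpace X] [MeasurableSpace X] {μ : Measure X}
  {G : (X → ℝ) → (X → ℝ) → X → ℝ} {D : (X → ℝ) → X → Prop}

theorem exp_le_two {e : ℝ} (h0 : 0 ≤ e) (h1 : e ≤ 1 / 2) : Real.exp e ≤ 1 + 2 * e := by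
  have h2 : 1 - e ≤ Real.exp (-e) := by
    have := Real.add_one_le_exp (-e)
    linarith
  have h3 : Real.exp (-e) * Real.exp e = 1 := by
    rw [← Real.exp_add]; simp
  have h4 : 0 < Real.exp e := Real.exp_pos e
  have h5 : (1 - e) * Real.exp e ≤ 1 := by
    calc (1 - e) * Real.exp e ≤ Real.exp (-e) * Real.exp e := by gcongr
      _ = 1 := h3
  nlinarith

/-- volumes of balls in an almost conical ball -/
theorem vol_two {n : ℕ} {K : ℝ} (hBG : ABG μ n K) {x : X} {T lam e s : ℝ} (hT : 0 < T)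
    (hlam : 0 < lam) (he0 : 0 ≤ e) (he : e ≤ 1 / 8) (hK : 0 ≤ K) (hKT : K * T ^ 2 ≤ e)
    (hc : μ.real (ball x (lam * T)) ≤ (1 + e) * lam ^ n * μ.real (ball x T))
    (h1 : lam * T ≤ s) (h2 : s ≤ T) :
    (1 - 4 * e) * (μ.real (ball x T) / T ^ n) * s ^ n ≤ μ.real (ball x s) ∧
    μ.real (ball x s) ≤ (1 + 4 * e) * (μ.real (ball x T) / T ^ n) * s ^ n := by
  have hlT : 0 < lam * T := by positivity
  have hs : 0 < s := hlT.trans_le h1
  have hexp : Real.exp (K * T ^ 2) ≤ 1 + 2 * e :=
    (Real.exp_le_exp.2 hKT).trans (exp_le_two he0 (by linarith))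
  have hexp2 : Real.exp (K * s ^ 2) ≤ 1 + 2 * e := by
    refine le_trans (Real.exp_le_exp.2 ?_) hexp
    gcongr
  have hV : 0 ≤ μ.real (ball x T) := measureReal_nonneg
  have hVs : 0 ≤ μ.real (ball x s) := measureReal_nonneg
  constructor
  · have b1 := hBG x s T hs h2
    have b2 : μ.real (ball x T) ≤ (T / s) ^ n * (1 + 2 * e) * μ.real (ball x s) :=
      b1.trans (by gcongr)
    have b3 : μ.real (ball x T) / T ^ n * s ^ n ≤ (1 + 2 * e) * μ.real (ball x s) := by
      calc μ.real (ball x T) / T ^ n * s ^ n ≤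
          ((T / s) ^ n * (1 + 2 * e) * μ.real (ball x s)) / T ^ n * s ^ n := by gcongr
        _ = (1 + 2 * e) * μ.real (ball x s) := by
          rw [div_pow]; field_simp
    have h4 : (1 - 4 * e) * (1 + 2 * e) ≤ 1 := by nlinarith
    calc (1 - 4 * e) * (μ.real (ball x T) / T ^ n) * s ^ n =
        (1 - 4 * e) * (μ.real (ball x T) / T ^ n * s ^ n) := by ring
      _ ≤ (1 - 4 * e) * ((1 + 2 * e) * μ.real (ball x s)) := by
        have : 0 ≤ 1 - 4 * e := by linarith
        gcongr
      _ = ((1 - 4 * e) * (1 + 2 * e)) * μ.real (ball x s) := by ring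
      _ ≤ 1 * μ.real (ball x s) := by gcongr
      _ = μ.real (ball x s) := one_mul _
  · have b1 := hBG x (lam * T) s hlT h1
    calc μ.real (ball x s) ≤ (s / (lam * T)) ^ n * Real.exp (K * s ^ 2) *
          μ.real (ball x (lam * T)) := b1
      _ ≤ (s / (lam * T)) ^ n * (1 + 2 * e) * ((1 + e) * lam ^ n * μ.real (ball x T)) := by
        gcongr
      _ = ((1 + 2 * e) * (1 + e)) * (μ.real (ball x T) / T ^ n) * s ^ n := by
        rw [div_pow, mul_pow]; field_simp
      _ ≤ (1 + 4 * e) * (μ.real (ball x T) / T ^ n) * s ^ n := by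
        gcongr
        nlinarith

/-- there are null spheres -/
theorem Cal.exists_null [BorelSpace X] [ProperSpace X] (h : Cal μ G D) (x : X) {a b : ℝ}
    (hab : a < b) : ∃ s, a < s ∧ s < b ∧ μ {q | dist x q = s} = 0 := by
  set ν := μ.restrict (closedBall x b) with hν
  have : IsFiniteMeasure ν := ⟨by
    rw [hν, Measure.restrict_apply_univ]; exact h.fin _ (isCompact_closedBall x b)⟩
  have hm : Measurable fun q : X => dist x q := (continuous_const.dist continuous_id).measurable
  have hcount := Measure.countable_meas_level_set_pos (μ := ν) hm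
  obtain ⟨s, hs, h1, h2⟩ := (Set.Countable.dense_compl ℝ hcount).exists_between hab
  refine ⟨s, h1, h2, ?_⟩
  have h3 : ν {q | dist x q = s} = 0 := by
    by_contra hc
    exact hs (pos_iff_ne_zero.2 hc)
  have hms : MeasurableSet {q | dist x q = s} := hm (measurableSet_singleton s)
  rw [hν, Measure.restrict_apply hms] at h3
  have h4 : {q | dist x q = s} ∩ closedBall x b = {q | dist x q = s} := by
    refine inter_eq_left.2 fun q hq => ?_
    rw [mem_closedBall, dist_comm]
    exact (le_of_eq hq).trans h2.le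
  rwa [h4] at h3

theorem lip_clamp {f : ℝ → ℝ} {α θ : ℝ} (hαθ : α ≤ θ) (hf : ContDiffOn ℝ 1 f (Icc α θ))
    {X : Type} [MetricSpace X] {d : X → ℝ} (hd : LipschitzWith 1 d) :
    ∃ C, LipschitzWith C fun q => f (max α (min (d q) θ)) := by
  obtain ⟨C, hC⟩ := hf.exists_lipschitzOnWith one_ne_zero (convex_Icc α θ) isCompact_Icc
  refine ⟨C, ?_⟩
  have h1 : LipschitzWith 1 fun q => max α (min (d q) θ) := (hd.min_const θ).const_max α
  refine LipschitzWith.of_dist_le_mul fun p q => ?_
  refine (hC.dist_le_mul _ ⟨le_max_left _ _, max_le hαθ (min_le_right _ _)⟩ _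
    ⟨le_max_left _ _, max_le hαθ (min_le_right _ _)⟩).trans ?_
  have := h1.dist_le_mul p q
  rw [NNReal.coe_one, one_mul] at this
  gcongr

/-- the radial Laplacian of `A d^(-m) + B d` -/
theorem Cal.radial (h : Cal μ G D) {x p : X} (hxp : x ≠ p) (hD : D (fun q => dist x q) p) {m : ℕ}
    (hm : 1 ≤ m) {φ : X → ℝ} {A B : ℝ}
    (hφ : ∀ᶠ q in 𝓝 p, φ q = A * ((dist x q) ^ m)⁻¹ + B * dist x q) :
    G (fun q => dist x q) φ p + m * φ p * (dist x p)⁻¹ = (m + 1) * B := by
  have hd : 0 < dist x p := dist_pos.2 hxp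
  have hder : HasDerivAt (fun s : ℝ => A * (s ^ m)⁻¹ + B * s)
      (A * (-(m * dist x p ^ (m - 1)) / (dist x p ^ m) ^ 2) + B) (dist x p) := by
    have h1 : HasDerivAt (fun s : ℝ => s ^ m) (m * dist x p ^ (m - 1)) (dist x p) :=
      hasDerivAt_pow m _
    have h2 := (h1.inv (by positivity)).const_mul A
    have h3 := (hasDerivAt_id (dist x p)).const_mul B
    exact (h2.fun_add h3).congr_deriv (by ring)
  have ev : φ =ᶠ[𝓝 p] fun q => (fun s : ℝ => A * (s ^ m)⁻¹ + B * s) (dist x q) := hφ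
  rw [h.congr' ev, h.chain' hD hder.differentiableAt, h.dist_one x p hxp hD, hder.deriv,
    hφ.self_of_nhds]
  obtain ⟨k, rfl⟩ : ∃ k, m = k + 1 := ⟨m - 1, by omega⟩
  simp only [Nat.add_sub_cancel]
  field_simp
  push_cast
  ring

end Vale.Agent.P210.R2.H597
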