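import Vale.Agent.P210.R2.H597.ConA

open MeasureTheory Metric Set Filter Topology
open scoped NNReal ENNReal Manifold

set_option maxSynthPendingDepth 3

noncomputable section

namespace Vale.Agent.P210.R2.H597

open H53

variable {X : Type} [MetricSpace X] [MeasurableSpace X] {μ : Measure X}
  {G : (X → ℝ) → (X → ℝ) → X → ℝ} {D : (X → ℝ) → X → Prop}

/-- radial test function whose weighted Laplacian is a difference of two uniform densities -/
theorem Cal.profile [BorelSpace X] [ProperSpace X] (h : Cal μ G D) {x : X} {m : ℕ} (hm : 1 ≤ m)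
    {α β γ θ ξ : ℝ} (hα : 0 < α) (hαβ : α < β) (hβγ : β < γ) (hγθ : γ < θ) (hξ : 0 < ξ)
    (nα : μ {q | dist x q = α} = 0) (nβ : μ {q | dist x q = β} = 0)
    (nγ : μ {q | dist x q = γ} = 0) (nθ : μ {q | dist x q = θ} = 0) :
    ∃ φ : X → ℝ, LC φ ∧ (∀ q, 0 ≤ φ q) ∧ (∀ q, dist x q ≤ α → φ q = 0) ∧
      (∀ q, θ ≤ dist x q → φ q = 0) ∧
      (∀ q, β ≤ dist x q → dist x q ≤ γ → φ q = ξ * (dist x q ^ m)⁻¹) ∧
      (∀ q, φ q ≤ ξ * (max α (dist x q) ^ m)⁻¹) ∧
      ∫ q, (G (fun q => dist x q) φ q + m * φ q * (dist x q)⁻¹) ∂μ =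
        (m + 1) * (ξ / (β ^ (m + 1) - α ^ (m + 1))) * μ.real (ball x β \ ball x α) -
        (m + 1) * (ξ / (θ ^ (m + 1) - γ ^ (m + 1))) * μ.real (ball x θ \ ball x γ) := by
  have hβ : 0 < β := hα.trans hαβ
  have hγ : 0 < γ := hβ.trans hβγ
  have hθ : 0 < θ := hγ.trans hγθ
  have hαθ : α ≤ θ := (hαβ.trans (hβγ.trans hγθ)).le
  have hab : 0 < β ^ (m + 1) - α ^ (m + 1) := sub_pos.2 (pow_lt_pow_left₀ hαβ hα.le (by omega))
  have hcd : 0 < θ ^ (m + 1) - γ ^ (m + 1) := sub_pos.2 (pow_lt_pow_left₀ hγθ hγ.le (by omega))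
  set a := ξ / (β ^ (m + 1) - α ^ (m + 1)) with ha
  set b := ξ / (θ ^ (m + 1) - γ ^ (m + 1)) with hb
  have ha0 : 0 < a := by positivity
  have hb0 : 0 < b := by positivity
  have hae : a * (β ^ (m + 1) - α ^ (m + 1)) = ξ := by rw [ha]; field_simp
  have hbe : b * (θ ^ (m + 1) - γ ^ (m + 1)) = ξ := by rw [hb]; field_simp
  set d : X → ℝ := fun q => dist x q with hd
  have hdL : LipschitzWith 1 d := dist_lip x
  set cl : X → ℝ := fun q => max α (min (d q) θ) with hcl
  set nu : ℝ → ℝ := fun s => min ξ (min (a * (s ^ (m + 1) - α ^ (m + 1)))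
    (b * (θ ^ (m + 1) - s ^ (m + 1)))) with hnu
  have hclα : ∀ q, α ≤ cl q := fun q => le_max_left _ _
  have hclθ : ∀ q, cl q ≤ θ := fun q => max_le hαθ (min_le_right _ _)
  -- Lipschitz bounds
  obtain ⟨C1, hC1⟩ := lip_clamp hαθ (f := fun s => a * (s ^ (m + 1) - α ^ (m + 1)))
    (by fun_prop) hdL
  obtain ⟨C2, hC2⟩ := lip_clamp hαθ (f := fun s => b * (θ ^ (m + 1) - s ^ (m + 1)))
    (by fun_prop) hdL
  obtain ⟨C3, hC3⟩ := lip_clamp hαθ (f := fun s => (s ^ m)⁻¹)
    (by
      refine ContDiffOn.inv (by fun_prop) fun s hs => ?_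
      have : 0 < s := hα.trans_le hs.1
      positivity) hdL
  have hnuL : LipschitzWith (max C1 C2) fun q => nu (cl q) := (hC1.min hC2).const_min ξ
  have hnu0 : ∀ s, α ≤ s → s ≤ θ → 0 ≤ nu s := by
    intro s h1 h2
    refine le_min hξ.le (le_min ?_ ?_)
    · have : α ^ (m + 1) ≤ s ^ (m + 1) := by gcongr
      exact mul_nonneg ha0.le (by linarith)
    · have h0 : 0 ≤ s := hα.le.trans h1
      have : s ^ (m + 1) ≤ θ ^ (m + 1) := by gcongr
      exact mul_nonneg hb0.le (by linarith)
  have hnu1 : ∀ s, nu s ≤ ξ := fun s => min_le_left _ _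
  have hclow : ∀ q, d q ≤ α → cl q = α := fun q hq => by
    simp only [hcl]
    exact max_eq_left ((min_le_left _ _).trans hq)
  have hchigh : ∀ q, θ ≤ d q → cl q = θ := fun q hq => by
    simp only [hcl]
    rw [min_eq_right hq, max_eq_right hαθ]
  have hcmid : ∀ q, α ≤ d q → d q ≤ θ → cl q = d q := fun q h1 h2 => by
    simp only [hcl]
    rw [min_eq_left h2, max_eq_right h1]
  have hnuα : nu α = 0 := by
    refine le_antisymm ((min_le_right _ _).trans ((min_le_left _ _).trans ?_)) (hnu0 α le_rfl hαθ)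
    simp
  have hnuθ : nu θ = 0 := by
    refine le_antisymm ((min_le_right _ _).trans ((min_le_right _ _).trans ?_)) (hnu0 θ hαθ le_rfl)
    simp
  have hcomp : HasCompactSupport fun q => nu (cl q) := by
    refine HasCompactSupport.of_support_subset_isCompact (isCompact_closedBall x θ) fun q hq => ?_
    by_contra hc
    rw [mem_closedBall, not_le, dist_comm] at hc
    refine hq ?_
    change nu (cl q) = 0
    rw [hchigh q hc.le, hnuθ]
  set φ : X → ℝ := fun q => nu (cl q) * (cl q ^ m)⁻¹ with hφ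
  have hinvb : ∀ q, |(cl q ^ m)⁻¹| ≤ (α ^ m)⁻¹ := fun q => by
    have h1 : 0 < cl q := hα.trans_le (hclα q)
    rw [abs_of_pos (by positivity)]
    gcongr
    exact hclα q
  have hφLC : LC φ := LC_mul hnuL hC3 (a := ξ) (fun q => by
    rw [abs_of_nonneg (hnu0 _ (hclα q) (hclθ q))]; exact hnu1 _) hinvb hcomp
  have hφ0 : ∀ q, 0 ≤ φ q := fun q => by
    have h1 : 0 < cl q := hα.trans_le (hclα q)
    exact mul_nonneg (hnu0 _ (hclα q) (hclθ q)) (by positivity)
  have hφlow : ∀ q, d q ≤ α → φ q = 0 := fun q hq => by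
    simp only [hφ]
    rw [hclow q hq, hnuα, zero_mul]
  have hφhigh : ∀ q, θ ≤ d q → φ q = 0 := fun q hq => by
    simp only [hφ]
    rw [hchigh q hq, hnuθ, zero_mul]
  -- values of nu
  have nu1 : ∀ s, α ≤ s → s ≤ β → nu s = a * (s ^ (m + 1) - α ^ (m + 1)) := by
    intro s h1 h2
    have h0 : 0 ≤ s := hα.le.trans h1
    have e1 : s ^ (m + 1) ≤ β ^ (m + 1) := by gcongr
    have e2 : s ^ (m + 1) ≤ γ ^ (m + 1) := by gcongr; linarith
    have e3 : a * (s ^ (m + 1) - α ^ (m + 1)) ≤ ξ := by
      rw [← hae]; gcongr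
    have e4 : ξ ≤ b * (θ ^ (m + 1) - s ^ (m + 1)) := by
      rw [← hbe]; gcongr
    simp only [hnu]
    rw [min_eq_left (e3.trans e4), min_eq_right e3]
  have nu2 : ∀ s, β ≤ s → s ≤ γ → nu s = ξ := by
    intro s h1 h2
    have h0 : 0 ≤ s := hβ.le.trans h1
    have e1 : β ^ (m + 1) ≤ s ^ (m + 1) := by gcongr
    have e2 : s ^ (m + 1) ≤ γ ^ (m + 1) := by gcongr
    have e3 : ξ ≤ a * (s ^ (m + 1) - α ^ (m + 1)) := by
      rw [← hae]; gcongr
    have e4 : ξ ≤ b * (θ ^ (m + 1) - s ^ (m + 1)) := by
      rw [← hbe]; gcongr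
    simp only [hnu]
    exact min_eq_left (le_min e3 e4)
  have nu3 : ∀ s, γ ≤ s → s ≤ θ → nu s = b * (θ ^ (m + 1) - s ^ (m + 1)) := by
    intro s h1 h2
    have h0 : 0 ≤ s := hγ.le.trans h1
    have e1 : β ^ (m + 1) ≤ s ^ (m + 1) := by gcongr; linarith
    have e2 : γ ^ (m + 1) ≤ s ^ (m + 1) := by gcongr
    have e3 : ξ ≤ a * (s ^ (m + 1) - α ^ (m + 1)) := by
      rw [← hae]; gcongr
    have e4 : b * (θ ^ (m + 1) - s ^ (m + 1)) ≤ ξ := by
      rw [← hbe]; gcongr
    simp only [hnu]
    rw [min_eq_right (e4.trans e3), min_eq_right e4]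
  refine ⟨φ, hφLC, hφ0, hφlow, hφhigh, ?_, ?_, ?_⟩
  · intro q h1 h2
    simp only [hφ]
    rw [hcmid q (by simp only [hd]; linarith) (by simp only [hd]; linarith), nu2 _ h1 h2]
  · intro q
    by_cases hq : θ ≤ d q
    · rw [hφhigh q hq]
      have : 0 < max α (dist x q) := lt_max_of_lt_left hα
      positivity
    · push Not at hq
      have e : cl q = max α (dist x q) := by
        simp only [hcl]
        rw [min_eq_left hq.le]
      have h1 : 0 < cl q := hα.trans_le (hclα q)
      simp only [hφ]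
      rw [← e]
      exact mul_le_mul_of_nonneg_right (hnu1 _) (by positivity)
  · have hae' : ∀ᵐ p ∂μ, G d φ p + m * φ p * (dist x p)⁻¹ =
        (ball x β \ ball x α).indicator (fun _ => (m + 1) * a) p -
        (ball x θ \ ball x γ).indicator (fun _ => (m + 1) * b) p := by
      have aα : ∀ᵐ p ∂μ, dist x p ≠ α := measure_eq_zero_iff_ae_notMem.1 nα
      have aβ : ∀ᵐ p ∂μ, dist x p ≠ β := measure_eq_zero_iff_ae_notMem.1 nβ
      have aγ : ∀ᵐ p ∂μ, dist x p ≠ γ := measure_eq_zero_iff_ae_notMem.1 nγ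
      have aθ : ∀ᵐ p ∂μ, dist x p ≠ θ := measure_eq_zero_iff_ae_notMem.1 nθ
      filter_upwards [aα, aβ, aγ, aθ, h.radL hdL] with p pα pβ pγ pθ hDp
      have hmem : ∀ s, p ∈ ball x s ↔ dist x p < s := fun s => by rw [mem_ball, dist_comm]
      have hcont : Continuous fun q => dist x q := by fun_prop
      rcases lt_or_gt_of_ne pα with h1 | h1
      · -- inner ball
        have ev : ∀ᶠ q in 𝓝 p, φ q = 0 := by
          filter_upwards [(isOpen_lt hcont continuous_const).mem_nhds h1] with q hq
          exact hφlow q (le_of_lt hq)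
        rw [h.zero_of 0 ev, ev.self_of_nhds, indicator_of_notMem, indicator_of_notMem]
        · simp
        · rw [Set.mem_sdiff, hmem, hmem]; push Not; intro _; linarith
        · rw [Set.mem_sdiff, hmem, hmem]; push Not; intro _; exact h1
      have hxp : x ≠ p := by
        rintro rfl
        rw [dist_self] at h1
        linarith
      rcases lt_or_gt_of_ne pβ with h2 | h2
      · have ev : ∀ᶠ q in 𝓝 p, φ q = (-(a * α ^ (m + 1))) * ((dist x q) ^ m)⁻¹ + a * dist x q := by
          filter_upwards [(isOpen_lt continuous_const hcont).mem_nhds h1,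
            (isOpen_lt hcont continuous_const).mem_nhds h2] with q q1 q2
          have q1' : α < dist x q := q1
          have q2' : dist x q < β := q2
          have q0 : 0 < dist x q := hα.trans q1'
          simp only [hφ]
          rw [hcmid q q1'.le (by simp only [hd]; linarith), nu1 _ q1'.le q2'.le]
          simp only [hd]
          field_simp
          ring
        rw [h.radial hxp hDp hm ev, indicator_of_mem, indicator_of_notMem]
        · ring
        · rw [Set.mem_sdiff, hmem, hmem]; push Not; intro _; linarith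
        · rw [Set.mem_sdiff, hmem, hmem]; exact ⟨h2, by linarith⟩
      rcases lt_or_gt_of_ne pγ with h3 | h3
      · have ev : ∀ᶠ q in 𝓝 p, φ q = ξ * ((dist x q) ^ m)⁻¹ + 0 * dist x q := by
          filter_upwards [(isOpen_lt continuous_const hcont).mem_nhds h2,
            (isOpen_lt hcont continuous_const).mem_nhds h3] with q q1 q2
          have q1' : β < dist x q := q1
          have q2' : dist x q < γ := q2
          simp only [hφ]
          rw [hcmid q (by simp only [hd]; linarith) (by simp only [hd]; linarith),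
            nu2 _ q1'.le q2'.le]
          ring
        rw [h.radial hxp hDp hm ev, indicator_of_notMem, indicator_of_notMem]
        · ring
        · rw [Set.mem_sdiff, hmem, hmem]; push Not; intro _; exact h3
        · rw [Set.mem_sdiff, hmem, hmem]; push Not; intro hc; linarith
      rcases lt_or_gt_of_ne pθ with h4 | h4
      · have ev : ∀ᶠ q in 𝓝 p, φ q = (b * θ ^ (m + 1)) * ((dist x q) ^ m)⁻¹ +
            (-b) * dist x q := by
          filter_upwards [(isOpen_lt continuous_const hcont).mem_nhds h3,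
            (isOpen_lt hcont continuous_const).mem_nhds h4] with q q1 q2
          have q1' : γ < dist x q := q1
          have q2' : dist x q < θ := q2
          have q0 : 0 < dist x q := hγ.trans q1'
          simp only [hφ]
          rw [hcmid q (by simp only [hd]; linarith) q2'.le, nu3 _ q1'.le q2'.le]
          simp only [hd]
          field_simp
          ring
        rw [h.radial hxp hDp hm ev, indicator_of_notMem, indicator_of_mem]
        · ring
        · rw [Set.mem_sdiff, hmem, hmem]; exact ⟨h4, by linarith⟩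
        · rw [Set.mem_sdiff, hmem, hmem]; push Not; intro hc; linarith
      · have ev : ∀ᶠ q in 𝓝 p, φ q = 0 := by
          filter_upwards [(isOpen_lt continuous_const hcont).mem_nhds h4] with q hq
          exact hφhigh q (le_of_lt hq)
        rw [h.zero_of 0 ev, ev.self_of_nhds, indicator_of_notMem, indicator_of_notMem]
        · simp
        · rw [Set.mem_sdiff, hmem, hmem]; push Not; intro hc; linarith
        · rw [Set.mem_sdiff, hmem, hmem]; push Not; intro hc; linarith
    have hfin : ∀ s, μ (ball x s) < ⊤ := fun s =>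
      (measure_mono ball_subset_closedBall).trans_lt (h.fin _ (isCompact_closedBall x s))
    have m1 : MeasurableSet (ball x β \ ball x α) := measurableSet_ball.diff measurableSet_ball
    have m2 : MeasurableSet (ball x θ \ ball x γ) := measurableSet_ball.diff measurableSet_ball
    have f1 : μ (ball x β \ ball x α) ≠ ⊤ := ((measure_mono sdiff_subset).trans_lt (hfin β)).ne
    have f2 : μ (ball x θ \ ball x γ) ≠ ⊤ := ((measure_mono sdiff_subset).trans_lt (hfin θ)).ne
    rw [integral_congr_ae hae', integral_sub, integral_indicator_const _ m1,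
      integral_indicator_const _ m2]
    · simp only [smul_eq_mul]; ring
    · exact (integrable_indicator_iff m1).2 (integrableOn_const f1)
    · exact (integrable_indicator_iff m2).2 (integrableOn_const f2)

end Vale.Agent.P210.R2.H597
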