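import Vale.Agent.P210.R2.H597.ConB

open MeasureTheory Metric Set Filter Topology
open scoped NNReal ENNReal Manifold

set_option maxSynthPendingDepth 3

noncomputable section

namespace Vale.Agent.P210.R2.H597

open H53

variable {X : Type} [MetricSpace X] [MeasurableSpace X] {μ : Measure X}
  {G : (X → ℝ) → (X → ℝ) → X → ℝ} {D : (X → ℝ) → X → Prop}

theorem pow_ratio {α β : ℝ} {m : ℕ} (h0 : 0 < α) (h : 5 * α ≤ 3 * β) :
    β ^ (m + 1) + α ^ (m + 1) ≤ 4 * (β ^ (m + 1) - α ^ (m + 1)) := by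
  have h1 : α ^ m ≤ β ^ m := by gcongr; linarith
  have h2 : 0 < α ^ m := by positivity
  have h3 : 5 * (α ^ m * α) ≤ 3 * (β ^ m * β) := by nlinarith
  rw [pow_succ, pow_succ]
  linarith

/-- the first term -/
theorem coni_num₁ {m : ℕ} {α β γ θ e v ξ Va Vb Vc Vd : ℝ} (hα : 0 < α) (h1 : 5 * α ≤ 3 * β)
    (hγ : 0 < γ) (h2 : 5 * γ ≤ 3 * θ) (he : 0 ≤ e) (hv : 0 ≤ v) (hξ : 0 ≤ ξ)
    (u1 : Vb ≤ (1 + 4 * e) * v * β ^ (m + 1)) (u2 : (1 - 4 * e) * v * α ^ (m + 1) ≤ Va)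
    (u3 : (1 - 4 * e) * v * θ ^ (m + 1) ≤ Vd) (u4 : Vc ≤ (1 + 4 * e) * v * γ ^ (m + 1)) :
    (m + 1) * (ξ / (β ^ (m + 1) - α ^ (m + 1))) * (Vb - Va) -
      (m + 1) * (ξ / (θ ^ (m + 1) - γ ^ (m + 1))) * (Vd - Vc) ≤ 32 * (m + 1) * e * ξ * v := by
  have hαβ : 0 < β ^ (m + 1) - α ^ (m + 1) :=
    sub_pos.2 (pow_lt_pow_left₀ (by linarith) hα.le (by omega))
  have hγθ : 0 < θ ^ (m + 1) - γ ^ (m + 1) :=
    sub_pos.2 (pow_lt_pow_left₀ (by linarith) (by linarith) (by omega))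
  have r1 := pow_ratio (m := m) hα h1
  have r2 := pow_ratio (m := m) hγ h2
  have s1 : Vb - Va ≤ v * (1 + 16 * e) * (β ^ (m + 1) - α ^ (m + 1)) := by
    have : 4 * e * v * (β ^ (m + 1) + α ^ (m + 1)) ≤
        4 * e * v * (4 * (β ^ (m + 1) - α ^ (m + 1))) := by gcongr
    linarith
  have s2 : v * (1 - 16 * e) * (θ ^ (m + 1) - γ ^ (m + 1)) ≤ Vd - Vc := by
    have : 4 * e * v * (θ ^ (m + 1) + γ ^ (m + 1)) ≤
        4 * e * v * (4 * (θ ^ (m + 1) - γ ^ (m + 1))) := by gcongr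
    linarith
  have s3 : (m + 1) * (ξ / (β ^ (m + 1) - α ^ (m + 1))) * (Vb - Va) ≤
      (m + 1) * ξ * (v * (1 + 16 * e)) := by
    calc (m + 1) * (ξ / (β ^ (m + 1) - α ^ (m + 1))) * (Vb - Va) ≤
        (m + 1) * (ξ / (β ^ (m + 1) - α ^ (m + 1))) *
          (v * (1 + 16 * e) * (β ^ (m + 1) - α ^ (m + 1))) := by gcongr
      _ = _ := by field_simp
  have s4 : (m + 1) * ξ * (v * (1 - 16 * e)) ≤
      (m + 1) * (ξ / (θ ^ (m + 1) - γ ^ (m + 1))) * (Vd - Vc) := by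
    calc (m + 1) * ξ * (v * (1 - 16 * e)) =
        (m + 1) * (ξ / (θ ^ (m + 1) - γ ^ (m + 1))) *
          (v * (1 - 16 * e) * (θ ^ (m + 1) - γ ^ (m + 1))) := by field_simp
      _ ≤ _ := by gcongr
  calc _ ≤ (m + 1) * ξ * (v * (1 + 16 * e)) - (m + 1) * ξ * (v * (1 - 16 * e)) :=
        sub_le_sub s3 s4
    _ = _ := by ring

theorem coni_num₂ {m : ℕ} (hm : 1 ≤ m) {K d₀ V : ℝ} (hd0 : 0 < d₀) :
    K * ((3 * d₀ / 2) ^ m * (4 / d₀) ^ (m - 1)) * V = K * d₀ * (6 ^ m / 4) * V := by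
  obtain ⟨k, rfl⟩ : ∃ k, m = k + 1 := ⟨m - 1, by omega⟩
  simp only [Nat.add_sub_cancel]
  rw [div_pow, div_pow, mul_pow, pow_succ d₀, pow_succ (3 : ℝ), pow_succ (2 : ℝ),
    pow_succ (6 : ℝ)]
  have e6 : (6 : ℝ) ^ k = 3 ^ k * 2 ^ k := by rw [← mul_pow]; norm_num
  have e4 : (4 : ℝ) ^ k = 2 ^ k * 2 ^ k := by rw [← mul_pow]; norm_num
  rw [e6, e4]
  field_simp
  ring

/-- the second term -/
theorem Cal.coni_two [BorelSpace X] [ProperSpace X] (h : Cal μ G D) {m : ℕ} (hm : 1 ≤ m) {K : ℝ}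
    (hK : 0 < K) {x : X} {T e d₀ α θ : ℝ} (hT : 0 < T) (hKT : K * T ^ 2 ≤ e) (hd0 : 0 < d₀)
    (hdT : d₀ ≤ T / 4) (hα : d₀ / 4 < α) (hθ : θ < T) {φ : X → ℝ} (φ2 : ∀ q, 0 ≤ φ q)
    (φ3 : ∀ q, dist x q ≤ α → φ q = 0) (φ4 : ∀ q, θ ≤ dist x q → φ q = 0)
    (φ6 : ∀ q, φ q ≤ (3 * d₀ / 2) ^ m * (max α (dist x q) ^ m)⁻¹) :
    ∫ q, K * dist x q * φ q ∂μ ≤ e * 6 ^ m * T ^ m * (μ.real (ball x T) / T ^ (m + 1)) := by
  have hα0 : 0 < α := by linarith
  have he0 : 0 ≤ e := le_trans (by positivity) hKT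
  have hb : ∀ q, |K * dist x q * φ q| ≤ K * ((3 * d₀ / 2) ^ m * (4 / d₀) ^ (m - 1)) := by
    intro q
    by_cases hq : dist x q ≤ α
    · rw [φ3 q hq]; simp; positivity
    · push Not at hq
      have hpos : 0 < dist x q := hα0.trans hq
      rw [abs_of_nonneg (mul_nonneg (by positivity) (φ2 q)), mul_assoc]
      have h1 := φ6 q
      rw [max_eq_right hq.le] at h1
      obtain ⟨k, rfl⟩ : ∃ k, m = k + 1 := ⟨m - 1, by omega⟩
      simp only [Nat.add_sub_cancel]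
      refine mul_le_mul_of_nonneg_left ?_ hK.le
      calc dist x q * φ q ≤ dist x q * ((3 * d₀ / 2) ^ (k + 1) * (dist x q ^ (k + 1))⁻¹) := by
            gcongr
        _ = (3 * d₀ / 2) ^ (k + 1) * ((dist x q)⁻¹) ^ k := by
          rw [pow_succ (dist x q), inv_pow]; field_simp
        _ ≤ (3 * d₀ / 2) ^ (k + 1) * (4 / d₀) ^ k := by
          gcongr
          rw [inv_le_comm₀ hpos (by positivity), inv_div]
          linarith
  have hmain := h.int_bound (f := fun q => K * dist x q * φ q) (isCompact_closedBall x θ)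
    (fun q hq => by
      rw [mem_closedBall, not_le, dist_comm] at hq
      rw [φ4 q hq.le, mul_zero]) (fun q _ => hb q)
  have h2 : μ.real (closedBall x θ) ≤ μ.real (ball x T) := h.real_mono (closedBall_subset_ball hθ)
  have h4 : μ.real (ball x T) = μ.real (ball x T) / T ^ (m + 1) * T ^ (m + 1) := by field_simp
  set V := μ.real (ball x T) with hV
  have hV0 : 0 ≤ V := measureReal_nonneg
  set v := V / T ^ (m + 1) with hv
  calc ∫ q, K * dist x q * φ q ∂μ ≤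
        K * ((3 * d₀ / 2) ^ m * (4 / d₀) ^ (m - 1)) * μ.real (closedBall x θ) :=
        (le_abs_self _).trans hmain
    _ ≤ K * ((3 * d₀ / 2) ^ m * (4 / d₀) ^ (m - 1)) * V := by gcongr
    _ = K * d₀ * (6 ^ m / 4) * V := coni_num₂ hm hd0
    _ ≤ K * (T / 4) * (6 ^ m / 4) * V := by gcongr
    _ = (K * T ^ 2) * (6 ^ m / 16) * (T ^ m * v) := by
      rw [h4]; ring
    _ ≤ e * 6 ^ m * (T ^ m * v) := by
      have h6 : (0 : ℝ) ≤ 6 ^ m := by positivity
      gcongr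
      linarith
    _ = _ := by ring

/-- lower bound for the volume of the small ball -/
theorem coni_low (h : Cal μ G D) [ProperSpace X] {m : ℕ} {K : ℝ} (hK : 0 < K) {x z : X}
    {T t e v : ℝ} (he : e ≤ 1 / 8) (hv : 0 ≤ v) (ht : 0 < t) (hd0 : 0 < dist x z)
    (htd : t ≤ dist x z) (hdT : dist x z ≤ T / 4) (hKT : K * T ^ 2 ≤ e)
    (hBG : ABG μ (m + 1) K)
    (h1 : (1 - 4 * e) * v * dist x z ^ (m + 1) ≤ μ.real (ball x (dist x z))) :
    v * t ^ (m + 1) ≤ 2 ^ (m + 2) * Real.exp 1 * μ.real (ball z t) := by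
  set d₀ := dist x z with hd₀
  set M := μ.real (ball z t) with hM
  have hM0 : 0 ≤ M := measureReal_nonneg
  have h2 : μ.real (ball x d₀) ≤ μ.real (ball z (2 * d₀)) := h.real_mono fun q hq => by
    rw [mem_ball] at hq ⊢
    linarith [dist_triangle q x z]
  have h3 := hBG z t (2 * d₀) ht (by linarith)
  have h4 : Real.exp (K * (2 * d₀) ^ 2) ≤ Real.exp 1 := by
    refine Real.exp_le_exp.2 ?_
    have : K * (2 * d₀) ^ 2 ≤ K * T ^ 2 := by
      gcongr
      linarith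
    linarith
  have h5 : v * d₀ ^ (m + 1) ≤ 2 * ((2 * d₀ / t) ^ (m + 1) * Real.exp 1 * M) := by
    have h6 : (2 * d₀ / t) ^ (m + 1) * Real.exp (K * (2 * d₀) ^ 2) * M ≤
        (2 * d₀ / t) ^ (m + 1) * Real.exp 1 * M := by gcongr
    have h7 : (1 / 2) * (v * d₀ ^ (m + 1)) ≤ (1 - 4 * e) * v * d₀ ^ (m + 1) := by
      rw [mul_assoc]
      gcongr
      linarith
    linarith
  calc v * t ^ (m + 1) = (v * d₀ ^ (m + 1)) * (t / d₀) ^ (m + 1) := by
        rw [div_pow]; field_simp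
    _ ≤ (2 * ((2 * d₀ / t) ^ (m + 1) * Real.exp 1 * M)) * (t / d₀) ^ (m + 1) := by gcongr
    _ = 2 ^ (m + 2) * Real.exp 1 * M := by
        rw [div_pow, div_pow, mul_pow, pow_succ (2 : ℝ) (m + 1)]; field_simp

theorem coni_num₃ {m : ℕ} {T t lam e ξ v Ψ M : ℝ} (ht : 0 < t) (hT : 0 < T) (hlam : 0 < lam)
    (he0 : 0 ≤ e) (hv0 : 0 ≤ v) (hM0 : 0 ≤ M) (hξT : ξ ≤ T ^ m) (htl : lam * T ≤ t)
    (he2 : (32 * (m + 1) + 6 ^ m) * e * 2 ^ (m + 2) * Real.exp 1 ≤ Ψ / 2 * lam ^ m)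
    (hvt : v * t ^ (m + 1) ≤ 2 ^ (m + 2) * Real.exp 1 * M) :
    32 * (m + 1) * e * ξ * v + e * 6 ^ m * T ^ m * v ≤ Ψ / 2 * M / t := by
  rw [le_div_iff₀ ht]
  have hlm : 0 < lam ^ m := by positivity
  have h1 : lam ^ m * T ^ m ≤ t ^ m := by
    rw [← mul_pow]; gcongr
  refine le_of_mul_le_mul_left ?_ hlm
  calc lam ^ m * ((32 * (m + 1) * e * ξ * v + e * 6 ^ m * T ^ m * v) * t) ≤
      lam ^ m * ((32 * (m + 1) * e * T ^ m * v + e * 6 ^ m * T ^ m * v) * t) := by gcongr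
    _ = (32 * (m + 1) + 6 ^ m) * e * (lam ^ m * T ^ m) * (v * t) := by ring
    _ ≤ (32 * (m + 1) + 6 ^ m) * e * t ^ m * (v * t) := by gcongr
    _ = (32 * (m + 1) + 6 ^ m) * e * (v * t ^ (m + 1)) := by ring
    _ ≤ (32 * (m + 1) + 6 ^ m) * e * (2 ^ (m + 2) * Real.exp 1 * M) := by gcongr
    _ = ((32 * (m + 1) + 6 ^ m) * e * 2 ^ (m + 2) * Real.exp 1) * M := by ring
    _ ≤ (Ψ / 2 * lam ^ m) * M := by gcongr
    _ = lam ^ m * (Ψ / 2 * M) := by ring

/-- the third term -/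
theorem Cal.coni_three [ProperSpace X] (h : Cal μ G D) {m : ℕ} {K : ℝ}
    (hK : 0 < K) {x z : X} {t c Ψ : ℝ} (ht : 0 < t) (hc0 : 0 < c)
    (hc2 : 2 * (m + 1) * c * 17 ^ (m + 1) * Real.exp 1 ≤ Ψ / 2)
    (hBG : ABG μ (m + 1) K) (hd0 : 0 < dist x z) (htd : t ≤ dist x z / 32)
    (htc : t ≤ c * dist x z) (hKd : K * dist x z ^ 2 ≤ 1 / 2) {w : X → ℝ}
    (hw1 : ∀ q, |w q| ≤ 1) (hw0 : ∀ q, 16 * t ≤ dist q z → w q = 0)
    (hwpos : ∀ q, w q ≠ 0 → dist q z < 16 * t ∧ dist x z / 2 ≤ dist x q ∧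
      dist x q ≤ 3 * dist x z / 2) :
    -∫ q, (m * (dist x q)⁻¹ + K * dist x q) * w q ∂μ ≤ Ψ / 2 * μ.real (ball z t) / t := by
  set d₀ := dist x z with hd₀
  have t3 : -∫ q, (m * (dist x q)⁻¹ + K * dist x q) * w q ∂μ ≤
      2 * (m + 1) / d₀ * μ.real (closedBall z (16 * t)) := by
    refine (neg_le_abs _).trans (h.int_bound (isCompact_closedBall z (16 * t))
      (fun q hq => ?_) fun q _ => ?_)
    · rw [mem_closedBall, not_le] at hq
      rw [hw0 q hq.le, mul_zero]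
    · by_cases hq : w q = 0
      · rw [hq]; simp; positivity
      · obtain ⟨h1, h2, h3⟩ := hwpos q hq
        have hpos : 0 < dist x q := by linarith
        rw [abs_mul, abs_of_nonneg (by positivity)]
        have h4 : K * (3 * d₀ / 2) ≤ 2 / d₀ := by
          rw [le_div_iff₀ hd0]
          nlinarith
        have h5 : (m : ℝ) * (dist x q)⁻¹ ≤ m * (d₀ / 2)⁻¹ := by gcongr
        have h6 : K * dist x q ≤ 2 / d₀ := le_trans (by gcongr) h4
        calc (m * (dist x q)⁻¹ + K * dist x q) * |w q| ≤ (m * (d₀ / 2)⁻¹ + 2 / d₀) * 1 :=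
              mul_le_mul (add_le_add h5 h6) (hw1 q) (abs_nonneg _) (by positivity)
          _ = 2 * (m + 1) / d₀ := by field_simp
  have hball : μ.real (closedBall z (16 * t)) ≤
      17 ^ (m + 1) * Real.exp 1 * μ.real (ball z t) := by
    have h1 : μ.real (closedBall z (16 * t)) ≤ μ.real (ball z (17 * t)) :=
      h.real_mono (closedBall_subset_ball (by linarith))
    have h2 := hBG z t (17 * t) ht (by linarith)
    have e1 : 17 * t / t = 17 := by field_simp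
    rw [e1] at h2
    refine h1.trans (h2.trans ?_)
    have h3 : Real.exp (K * (17 * t) ^ 2) ≤ Real.exp 1 := by
      refine Real.exp_le_exp.2 ?_
      have : K * (17 * t) ^ 2 ≤ K * d₀ ^ 2 := by
        gcongr
        linarith
      linarith
    gcongr
  have hM0 : 0 ≤ μ.real (ball z t) := measureReal_nonneg
  have h1 : 1 / d₀ ≤ c / t := by
    rw [div_le_div_iff₀ hd0 ht]
    linarith
  calc _ ≤ _ := t3
    _ = 2 * (m + 1) * (1 / d₀) * μ.real (closedBall z (16 * t)) := by ring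
    _ ≤ 2 * (m + 1) * (c / t) * (17 ^ (m + 1) * Real.exp 1 * μ.real (ball z t)) := by gcongr
    _ = (2 * (m + 1) * c * 17 ^ (m + 1) * Real.exp 1) * μ.real (ball z t) / t := by ring
    _ ≤ Ψ / 2 * μ.real (ball z t) / t := by gcongr

/-- the vertex of an almost conical ball is a pole -/
theorem Cal.coni [BorelSpace X] [ProperSpace X] (h : Cal μ G D) {m : ℕ} (hm : 1 ≤ m) {K : ℝ}
    (hK : 0 < K) {x z : X} {T t lam e c Ψ : ℝ} (hT : 0 < T) (ht : 0 < t) (hlam : 0 < lam)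
    (he0 : 0 < e) (he : e ≤ 1 / 8) (hKT : K * T ^ 2 ≤ e) (hc0 : 0 < c) (hc1 : c ≤ 1 / 32)
    (hc2 : 2 * (m + 1) * c * 17 ^ (m + 1) * Real.exp 1 ≤ Ψ / 2)
    (he2 : (32 * (m + 1) + 6 ^ m) * e * 2 ^ (m + 2) * Real.exp 1 ≤ Ψ / 2 * lam ^ m)
    (hW : WL μ G ((m + 1 : ℕ) : ℝ) K x) (hBG : ABG μ (m + 1) K)
    (hcon : μ.real (ball x (lam * T)) ≤ (1 + e) * lam ^ (m + 1) * μ.real (ball x T))
    (hxz : dist x z ≤ T / 4) (htl : lam * T ≤ t) (htc : t ≤ c * dist x z) :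
    AMass μ G x z (16 * t) (Ψ * μ.real (ball z t) / t) := by
  intro w hw hw1 hw0
  set d₀ := dist x z with hd₀
  have hd0 : 0 < d₀ := by
    by_contra hc
    push Not at hc
    have : c * d₀ ≤ 0 := mul_nonpos_of_nonneg_of_nonpos hc0.le hc
    linarith
  have htd : t ≤ d₀ / 32 := by
    calc t ≤ c * d₀ := htc
      _ ≤ 1 / 32 * d₀ := by gcongr
      _ = d₀ / 32 := by ring
  obtain ⟨α, α1, α2, nα⟩ := h.exists_null x (a := d₀ / 4) (b := 9 * d₀ / 32) (by linarith)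
  obtain ⟨β, β1, β2, nβ⟩ := h.exists_null x (a := 15 * d₀ / 32) (b := d₀ / 2) (by linarith)
  obtain ⟨γ, γ1, γ2, nγ⟩ := h.exists_null x (a := T / 2) (b := 9 * T / 16) (by linarith)
  obtain ⟨θ, θ1, θ2, nθ⟩ := h.exists_null x (a := 15 * T / 16) (b := T) (by linarith)
  have hα : 0 < α := by linarith
  have hξ0 : 0 < (3 * d₀ / 2) ^ m := by positivity
  obtain ⟨φ, φ1, φ2, φ3, φ4, φ5, φ6, φ7⟩ := h.profile hm hα (β := β) (γ := γ) (θ := θ)
    (ξ := (3 * d₀ / 2) ^ m) (by linarith) (by linarith) (by linarith) hξ0 nα nβ nγ nθ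
  have hdL := dist_lip x
  have hwpos : ∀ q, w q ≠ 0 → dist q z < 16 * t ∧ d₀ / 2 ≤ dist x q ∧ dist x q ≤ 3 * d₀ / 2 := by
    intro q hq
    have h1 : dist q z < 16 * t := by
      by_contra hc
      exact hq (hw0 q (not_lt.1 hc))
    refine ⟨h1, ?_, ?_⟩
    · linarith [dist_triangle x q z]
    · linarith [dist_triangle x z q, dist_comm z q]
  have hwφ : ∀ q, w q ≤ φ q := by
    intro q
    by_cases hq : w q = 0
    · rw [hq]; exact φ2 q
    · obtain ⟨h1, h2, h3⟩ := hwpos q hq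
      refine ((le_abs_self _).trans (hw1 q)).trans ?_
      rw [φ5 q (by linarith) (by linarith)]
      have hpos : 0 < dist x q := by linarith
      rw [← div_eq_mul_inv, one_le_div (by positivity)]
      gcongr
  have hlap := h.lap hW (δ := α) hα hw φ1 (fun q hq => ⟨by
    by_contra hc
    have := (hwpos q hc).2.1
    linarith, φ3 q hq.le⟩) hwφ
  have hmn : (((m + 1 : ℕ) : ℝ) - 1) = m := by push_cast; ring
  rw [hmn] at hlap
  have hdm : Measurable fun q : X => dist x q := hdL.continuous.measurable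
  have hφc : Continuous φ := φ1.1.choose_spec.continuous
  have hwc : Continuous w := hw.1.choose_spec.continuous
  have hφT : ∀ q ∉ closedBall x θ, φ q = 0 := fun q hq => by
    rw [mem_closedBall, not_le, dist_comm] at hq
    exact φ4 q hq.le
  have hφb : ∀ q, |φ q| ≤ (3 * d₀ / 2) ^ m * (α ^ m)⁻¹ := fun q => by
    rw [abs_of_nonneg (φ2 q)]
    refine (φ6 q).trans ?_
    gcongr
    exact le_max_left _ _
  have i1 : Integrable (G (fun q => dist x q) φ) μ := h.int_G hdL φ1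
  have i2 : Integrable (fun q => m * φ q * (dist x q)⁻¹) μ := by
    refine h.integrable_of (C := m * ((3 * d₀ / 2) ^ m * (α ^ m)⁻¹) * α⁻¹)
      ((measurable_const.mul hφc.measurable).mul hdm.inv).aestronglyMeasurable (fun q => ?_)
      (isCompact_closedBall x θ) (fun q hq => by rw [hφT q hq]; simp)
    by_cases hq : dist x q ≤ α
    · rw [φ3 q hq]; simp; positivity
    · push Not at hq
      have hpos : 0 < dist x q := hα.trans hq
      rw [abs_mul, abs_mul, abs_of_nonneg (by positivity : (0 : ℝ) ≤ (m : ℝ)),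
        abs_of_pos (inv_pos.2 hpos)]
      gcongr
      exact hφb q
  have i3 : Integrable (fun q => K * dist x q * φ q) μ :=
    h.int_LC (by fun_prop) φ1.2.mul_left
  have i4 : Integrable (fun q => (m * (dist x q)⁻¹ + K * dist x q) * w q) μ := by
    refine h.integrable_of (C := m * (d₀ / 2)⁻¹ + K * (3 * d₀ / 2))
      (((measurable_const.mul hdm.inv).add (measurable_const.mul hdm)).mul
        hwc.measurable).aestronglyMeasurable (fun q => ?_)
      (isCompact_closedBall z (16 * t)) (fun q hq => ?_)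
    · by_cases hq : w q = 0
      · rw [hq]; simp; positivity
      · obtain ⟨h1, h2, h3⟩ := hwpos q hq
        have hpos : 0 < dist x q := by linarith
        rw [abs_mul, abs_of_nonneg (by positivity)]
        calc (m * (dist x q)⁻¹ + K * dist x q) * |w q| ≤
            (m * (d₀ / 2)⁻¹ + K * (3 * d₀ / 2)) * 1 := by
              gcongr
              exact hw1 q
          _ = _ := mul_one _
    · rw [mem_closedBall, not_le] at hq
      rw [hw0 q hq.le, mul_zero]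
  have split : ∫ q, (m * (dist x q)⁻¹ + K * dist x q) * (φ q - w q) ∂μ =
      ∫ q, m * φ q * (dist x q)⁻¹ ∂μ + ∫ q, K * dist x q * φ q ∂μ -
        ∫ q, (m * (dist x q)⁻¹ + K * dist x q) * w q ∂μ := by
    rw [← MeasureTheory.integral_add i2 i3]
    have := integral_sub (i2.add i3) i4
    simp only [Pi.add_apply] at this
    rw [← this]
    refine integral_congr_ae (Eventually.of_forall fun q => ?_)
    simp only
    ring
  rw [MeasureTheory.integral_add i1 i2] at φ7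
  have hv0 : 0 ≤ μ.real (ball x T) / T ^ (m + 1) := by positivity
  have hld : lam * T ≤ d₀ / 32 := htl.trans htd
  have vol := fun s (h1 : lam * T ≤ s) (h2 : s ≤ T) =>
    vol_two hBG hT hlam he0.le he hK.le hKT hcon h1 h2
  have hfin : ∀ s, μ (ball x s) ≠ ⊤ := fun s =>
    ((measure_mono ball_subset_closedBall).trans_lt (h.fin _ (isCompact_closedBall x s))).ne
  have hdiff : ∀ s s', s ≤ s' → μ.real (ball x s' \ ball x s) =
      μ.real (ball x s') - μ.real (ball x s) := fun s s' hs =>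
    measureReal_sdiff (ball_subset_ball hs) measurableSet_ball (hfin s')
  rw [hdiff α β (by linarith), hdiff γ θ (by linarith)] at φ7
  have t1 := coni_num₁ (m := m) hα (by linarith) (by linarith : 0 < γ) (by linarith) he0.le hv0
    hξ0.le (vol β (by linarith) (by linarith)).2 (vol α (by linarith) (by linarith)).1
    (vol θ (by linarith) (by linarith)).1 (vol γ (by linarith) (by linarith)).2
  have t2 := h.coni_two hm hK hT hKT hd0 hxz α1 θ2 φ2 φ3 φ4 φ6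
  have hKd : K * d₀ ^ 2 ≤ 1 / 2 := by
    calc K * d₀ ^ 2 ≤ K * (T / 4) ^ 2 := by gcongr
      _ = K * T ^ 2 / 16 := by ring
      _ ≤ 1 / 2 := by linarith
  have t3 := h.coni_three hK ht hc0 hc2 hBG hd0 htd htc hKd hw1 hw0 hwpos
  have hvt := coni_low h hK he hv0 ht hd0 (by linarith) hxz hKT hBG
    (vol d₀ (by linarith) (by linarith)).1
  have hξT : (3 * d₀ / 2) ^ m ≤ T ^ m := by
    gcongr
    linarith
  have q1 := coni_num₃ ht hT hlam he0.le hv0 measureReal_nonneg hξT htl he2 hvt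
  have e1 : Ψ * μ.real (ball z t) / t =
      Ψ / 2 * μ.real (ball z t) / t + Ψ / 2 * μ.real (ball z t) / t := by ring
  rw [split] at hlap
  rw [e1]
  linarith

/-- CONI -/
theorem coni (hW : Stmt.WLC) (hA : Stmt.CALA) (hB : Stmt.CALB) (hV : Stmt.BG) : Stmt.CONI := by
  intro n hn Ψ hΨ
  obtain ⟨m, rfl⟩ : ∃ m, n = m + 1 := ⟨n - 1, by omega⟩
  have hm : 1 ≤ m := by omega
  set c := min (min (1 / 32) Ψ) (Ψ / (4 * (m + 1) * 17 ^ (m + 1) * Real.exp 1)) with hc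
  have hcm : (0 : ℝ) < 4 * (m + 1) * 17 ^ (m + 1) * Real.exp 1 := by positivity
  have hc0 : 0 < c := lt_min (lt_min (by norm_num) hΨ) (by positivity)
  have hc1 : c ≤ 1 / 32 := (min_le_left _ _).trans (min_le_left _ _)
  have hcΨ : c ≤ Ψ := (min_le_left _ _).trans (min_le_right _ _)
  have hc2 : 2 * (m + 1) * c * 17 ^ (m + 1) * Real.exp 1 ≤ Ψ / 2 := by
    have : c ≤ Ψ / (4 * (m + 1) * 17 ^ (m + 1) * Real.exp 1) := min_le_right _ _
    rw [le_div_iff₀ hcm] at this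
    linarith
  refine ⟨c, hc0, fun lam hlam => ?_⟩
  have hem : (0 : ℝ) < (32 * (m + 1) + 6 ^ m) * 2 ^ (m + 2) * Real.exp 1 := by positivity
  set e := min (1 / 8) (Ψ / 2 * lam ^ m / ((32 * (m + 1) + 6 ^ m) * 2 ^ (m + 2) * Real.exp 1))
    with he
  have he0 : 0 < e := lt_min (by norm_num) (by positivity)
  have he1 : e ≤ 1 / 8 := min_le_left _ _
  have he2 : (32 * (m + 1) + 6 ^ m) * e * 2 ^ (m + 2) * Real.exp 1 ≤ Ψ / 2 * lam ^ m := by
    have : e ≤ Ψ / 2 * lam ^ m / ((32 * (m + 1) + 6 ^ m) * 2 ^ (m + 2) * Real.exp 1) :=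
      min_le_right _ _
    rw [le_div_iff₀ hem] at this
    linarith
  refine ⟨e, he0, ?_⟩
  intro E _ _ _ _ _ M _ _ _ _ _ _ _ _ _ hE hEn μ K hμ hK hR x z T t hT hKT hcon hxz htl htc
  have ht : 0 < t := lt_of_lt_of_le (by positivity) htl
  have hd0 : 0 ≤ dist x z := dist_nonneg
  refine ⟨htc.trans (by gcongr), ?_, ?_⟩
  · calc K * t * dist x z ≤ K * (c * dist x z) * dist x z := by gcongr
      _ ≤ K * (c * (T / 4)) * (T / 4) := by gcongr
      _ = c * (K * T ^ 2) / 16 := by ring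
      _ ≤ c * e / 16 := by gcongr
      _ ≤ Ψ := by nlinarith
  · have hcal := cal_of hA hB E M hE μ hμ
    refine hcal.coni hm hK hT ht hlam he0 he1 hKT hc0 hc1 hc2 he2 (fun ζ h1 h2 => ?_)
      (hV (m + 1) hn E M hE hEn μ K hμ hK hR) hcon hxz htl htc
    have := hW E M hE μ K hμ hK hR x ζ h1 h2
    rwa [hEn] at this

end Vale.Agent.P210.R2.H597
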