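import Vale.Agent.P210.R2.H597.Cal

open MeasureTheory Metric Set Filter Topology
open scoped NNReal ENNReal Manifold

set_option maxSynthPendingDepth 3

noncomputable section

namespace Vale.Agent.P210.R2.H597

open H53

variable {X : Type} [MetricSpace X] [MeasurableSpace X] [BorelSpace X] {μ : Measure X}
  {G : (X → ℝ) → (X → ℝ) → X → ℝ} {D : (X → ℝ) → X → Prop}

/-- weak Laplacian comparison at `x` -/
def WL (μ : Measure X) (G : (X → ℝ) → (X → ℝ) → X → ℝ) (n K : ℝ) (x : X) : Prop :=
  ∀ ζ : X → ℝ, LC ζ → (∀ p, 0 ≤ ζ p) →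
    -∫ p, G (fun q => dist x q ^ 2 / 2) ζ p ∂μ ≤ ∫ p, (n + K * dist x p ^ 2) * ζ p ∂μ

omit [MeasurableSpace X] [BorelSpace X] in
theorem dist_lip (x : X) : LipschitzWith 1 fun q : X => dist x q := LipschitzWith.dist_right x

theorem inv_max_lip {X : Type} [MetricSpace X] {f : X → ℝ} (hf : LipschitzWith 1 f) {δ : ℝ}
    (hδ : 0 < δ) : LipschitzWith (Real.toNNReal (1 / δ ^ 2)) fun q => (max (f q) δ)⁻¹ := by
  refine LipschitzWith.of_dist_le' fun p q => ?_
  have h1 := (hf.max_const δ).dist_le_mul p q
  rw [Real.dist_eq] at *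
  have hp : δ ≤ max (f p) δ := le_max_right _ _
  have hq : δ ≤ max (f q) δ := le_max_right _ _
  have hp0 : 0 < max (f p) δ := hδ.trans_le hp
  have hq0 : 0 < max (f q) δ := hδ.trans_le hq
  have e : (max (f p) δ)⁻¹ - (max (f q) δ)⁻¹ =
      (max (f q) δ - max (f p) δ) / (max (f p) δ * max (f q) δ) := by
    field_simp
  rw [e, abs_div, abs_of_pos (mul_pos hp0 hq0), div_le_iff₀ (mul_pos hp0 hq0), abs_sub_comm]
  calc |max (f p) δ - max (f q) δ| ≤ dist p q := by simpa using h1
    _ = 1 / δ ^ 2 * dist p q * (δ * δ) := by field_simp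
    _ ≤ 1 / δ ^ 2 * dist p q * (max (f p) δ * max (f q) δ) := by gcongr

/-- Laplacian comparison for the distance, away from the pole -/
theorem Cal.lap (h : Cal μ G D) {n K : ℝ} {x : X} (hW : WL μ G n K x) {w φ : X → ℝ} {δ : ℝ}
    (hδ : 0 < δ) (hw : LC w) (hφ : LC φ) (h0 : ∀ q, dist x q < δ → w q = 0 ∧ φ q = 0)
    (hle : ∀ q, w q ≤ φ q) :
    ∫ q, G (fun q => dist x q) w q ∂μ ≤ ∫ q, G (fun q => dist x q) φ q ∂μ +
      ∫ q, ((n - 1) * (dist x q)⁻¹ + K * dist x q) * (φ q - w q) ∂μ := by
  have hδ2 : 0 < δ / 2 := by positivity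
  set d : X → ℝ := fun q => dist x q with hd
  set u : X → ℝ := fun q => φ q - w q with hu
  set g : X → ℝ := fun q => (max (d q) (δ / 2))⁻¹ with hg
  have hdL : LipschitzWith 1 d := dist_lip x
  have hgL := inv_max_lip hdL hδ2
  have huLC : LC u := LC_sub hφ hw
  obtain ⟨⟨A, hA⟩, hc⟩ := id huLC
  obtain ⟨a, ha⟩ := hc.exists_bound_of_continuous hA.continuous
  have hgb : ∀ p, |g p| ≤ (δ / 2)⁻¹ := fun p => by
    have : δ / 2 ≤ max (d p) (δ / 2) := le_max_right _ _
    rw [abs_of_pos (inv_pos.2 (hδ2.trans_le this))]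
    exact inv_anti₀ hδ2 this
  have hζ : LC fun p => u p * g p := LC_mul hA hgL (fun p => by simpa using ha p) hgb hc
  have hu0 : ∀ p, 0 ≤ u p := fun p => sub_nonneg.2 (hle p)
  have hζe : ∀ p, u p * g p = u p * (d p)⁻¹ := by
    intro p
    by_cases hp : dist x p < δ
    · have : u p = 0 := by simp [hu, h0 p hp]
      simp [this]
    · have : max (d p) (δ / 2) = d p := max_eq_left (by simp only [hd]; linarith)
      simp only [hg, this]
  have hζ0 : ∀ p, 0 ≤ u p * g p := fun p => by
    have : δ / 2 ≤ max (d p) (δ / 2) := le_max_right _ _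
    exact mul_nonneg (hu0 p) (inv_nonneg.2 (hδ2.le.trans this))
  have key := hW _ hζ hζ0
  -- the pointwise identity
  have hid : ∀ᵐ p ∂μ, G (fun q => dist x q ^ 2 / 2) (fun p => u p * g p) p =
      G d u p - u p * g p := by
    filter_upwards [h.radL hdL, h.radL hA, h.radL hgL] with p h1 h2 h3
    by_cases hp : dist x p < δ
    · have hev : ∀ᶠ q in 𝓝 p, dist x q < δ :=
        (isOpen_lt (by fun_prop) continuous_const).mem_nhds hp
      have e1 : ∀ᶠ q in 𝓝 p, u q * g q = 0 := by
        filter_upwards [hev] with q hq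
        simp [hu, h0 q hq]
      have e2 : ∀ᶠ q in 𝓝 p, u q = 0 := by
        filter_upwards [hev] with q hq
        simp [hu, h0 q hq]
      rw [h.zero_of 0 e1, h.zero_of 0 e2, e1.self_of_nhds]
      simp
    · push Not at hp
      have hxp : x ≠ p := by
        rintro rfl
        rw [dist_self] at hp
        linarith
      have hdp : 0 < d p := hδ.trans_le hp
      have c1 : G (fun q => dist x q ^ 2 / 2) (fun p => u p * g p) p =
          d p * G d (fun p => u p * g p) p := by
        have := h.chain (fun s => s ^ 2 / 2) d (fun p => u p * g p) p h1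
          (by fun_prop)
        have e : deriv (fun s : ℝ => s ^ 2 / 2) (d p) = d p := by
          rw [deriv_div_const, deriv_pow_field]; simp
        rw [e] at this
        exact this
      have c2 : G d (fun p => u p * g p) p = u p * G d g p + g p * G d u p := h.mul' h2 h3
      have c3 : G d g p = -(d p ^ 2)⁻¹ := by
        have ev : g =ᶠ[𝓝 p] fun q => (fun s : ℝ => s⁻¹) (d q) := by
          have : ∀ᶠ q in 𝓝 p, δ / 2 < d q :=
            (isOpen_lt continuous_const hdL.continuous).mem_nhds
              (by change δ / 2 < d p; simp only [hd]; linarith)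
          filter_upwards [this] with q hq
          simp only [hg]
          rw [max_eq_left hq.le]
        rw [h.congr' ev, h.chain' h1 (differentiableAt_inv hdp.ne'), h.dist_one x p hxp h1,
          deriv_inv]
        simp
      have c4 : g p = (d p)⁻¹ := by
        simp only [hg]
        rw [max_eq_left (by linarith)]
      rw [c1, c2, c3, c4]
      field_simp
      ring
  have i1 : Integrable (G d u) μ := h.int_G hdL huLC
  have i2 : Integrable (fun p => u p * g p) μ := h.int_LC (hζ.1.choose_spec.continuous) hζ.2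
  have e1 : ∫ p, G (fun q => dist x q ^ 2 / 2) (fun p => u p * g p) p ∂μ =
      ∫ p, G d u p ∂μ - ∫ p, u p * g p ∂μ := by
    rw [integral_congr_ae hid, integral_sub i1 i2]
  have e2 : ∫ p, G d u p ∂μ = ∫ p, G d φ p ∂μ - ∫ p, G d w p ∂μ := by
    have hnw := LC_neg hw
    have : ∫ p, G d u p ∂μ = ∫ p, G d φ p ∂μ + ∫ p, G d (fun q => -w q) p ∂μ := by
      rw [← h.integral_add hdL hφ hnw]
      simp only [hu, sub_eq_add_neg]
    rw [this]
    have e3 : ∀ p, G d (fun q => -w q) p = -G d w p := fun p => by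
      have := h.smul' (-1) w d p
      simpa using this
    simp only [e3]
    rw [integral_neg, sub_eq_add_neg]
  have i3 : Integrable (fun p => (n + K * dist x p ^ 2) * (u p * g p)) μ := by
    refine h.int_LC ?_ hζ.2.mul_left
    have := hζ.1.choose_spec.continuous
    fun_prop
  have e4 : ∫ p, (n + K * dist x p ^ 2) * (u p * g p) ∂μ - ∫ p, u p * g p ∂μ =
      ∫ q, ((n - 1) * (dist x q)⁻¹ + K * dist x q) * (φ q - w q) ∂μ := by
    rw [← integral_sub i3 i2]
    refine integral_congr_ae (Eventually.of_forall fun p => ?_)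
    simp only
    change (n + K * dist x p ^ 2) * (u p * g p) - u p * g p =
      ((n - 1) * (dist x p)⁻¹ + K * dist x p) * u p
    rw [hζe]
    by_cases hp : dist x p < δ
    · have : u p = 0 := by simp [hu, h0 p hp]
      simp [this]
    · push Not at hp
      have hdp : 0 < dist x p := hδ.trans_le hp
      simp only [hd]
      field_simp
      ring
  linarith

end Vale.Agent.P210.R2.H597
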