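import Vale.Agent.P210.R2.H597.Lap

open MeasureTheory Metric Set Filter Topology
open scoped NNReal ENNReal Manifold

set_option maxSynthPendingDepth 3

noncomputable section

namespace Vale.Agent.P210.R2.H597

open H53

variable {X : Type} [MetricSpace X] [MeasurableSpace X] {μ : Measure X}
  {G : (X → ℝ) → (X → ℝ) → X → ℝ} {D : (X → ℝ) → X → Prop}

/-- mass bound of the Laplacian of the distance to `p` on `B(y, s)` -/
def AMass (μ : Measure X) (G : (X → ℝ) → (X → ℝ) → X → ℝ) (p y : X) (s a : ℝ) : Prop :=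
  ∀ w : X → ℝ, LC w → (∀ q, |w q| ≤ 1) → (∀ q, s ≤ dist q y → w q = 0) →
    ∫ q, G (fun q => dist p q) w q ∂μ ≤ a

/-- volume comparison -/
def ABG (μ : Measure X) (n : ℕ) (K : ℝ) : Prop :=
  ∀ (x : X) (s t : ℝ), 0 < s → s ≤ t →
    μ.real (ball x t) ≤ (t / s) ^ n * Real.exp (K * t ^ 2) * μ.real (ball x s)

theorem Cal.int_bound (h : Cal μ G D) {f : X → ℝ} {C : ℝ} {S : Set X} (hS : IsCompact S)
    (h0 : ∀ p ∉ S, f p = 0) (hC : ∀ p ∈ S, |f p| ≤ C) : |∫ p, f p ∂μ| ≤ C * μ.real S := by
  rw [← setIntegral_eq_integral_of_forall_compl_eq_zero (s := S) h0, ← Real.norm_eq_abs]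
  exact norm_setIntegral_le_of_norm_le_const (h.fin S hS) fun p hp => by
    rw [Real.norm_eq_abs]; exact hC p hp

theorem Cal.real_mono (h : Cal μ G D) [ProperSpace X] {S : Set X} {y : X} {t : ℝ}
    (hS : S ⊆ ball y t) : μ.real S ≤ μ.real (ball y t) :=
  measureReal_mono hS
    (((measure_mono ball_subset_closedBall).trans_lt
      (h.fin _ (isCompact_closedBall y t))).ne)

theorem clamp_lip {X : Type} [MetricSpace X] {f : X → ℝ} {C : ℝ≥0} (hf : LipschitzWith C f) :
    LipschitzWith C fun q => max 0 (min 1 (f q)) :=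
  (hf.const_min 1).const_max 0

theorem aff_lip {X : Type} [MetricSpace X] {f : X → ℝ} (hf : LipschitzWith 1 f) (a b : ℝ) :
    LipschitzWith (Real.toNNReal |b|) fun q => a + b * f q := by
  refine LipschitzWith.of_dist_le' fun p q => ?_
  have h1 := hf.dist_le_mul p q
  rw [Real.dist_eq] at *
  have e : a + b * f p - (a + b * f q) = b * (f p - f q) := by ring
  rw [e, abs_mul]
  simp only [NNReal.coe_one, one_mul] at h1
  gcongr

/-- total mass of the Laplacian of a distance -/
theorem Cal.mass [BorelSpace X] [ProperSpace X] (h : Cal μ G D) {n : ℕ} (hn : 2 ≤ n) {K : ℝ}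
    (hK : 0 < K) {x y : X} {r κ : ℝ} (hr : 0 < r) (hκ : 0 < κ) (hκ1 : κ ≤ 1)
    (hKr : K * r ^ 2 ≤ 1) (hxy : dist x y ≤ 2 * r) (hW : WL μ G n K x) (hBG : ABG μ n K)
    (Z : Finset X) (t a : X → ℝ) (hZ : ∀ z ∈ Z, 0 < t z ∧ t z ≤ r ∧ dist z y ≤ r ∧
      κ * r + t z ≤ dist x z ∧ ¬ AMass μ G x z (t z) (a z))
    (hd : ∀ z ∈ Z, ∀ z' ∈ Z, z ≠ z' → t z + t z' ≤ dist z z') :
    ∑ z ∈ Z, a z ≤ (4 * n + 8) * 4 ^ n * Real.exp 16 * μ.real (ball y r) / (κ * r) := by
  classical
  have hκr : 0 < κ * r := by positivity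
  have hex : ∀ z, ∃ w : X → ℝ, z ∈ Z → LC w ∧ (∀ q, |w q| ≤ 1) ∧
      (∀ q, t z ≤ dist q z → w q = 0) ∧ a z < ∫ q, G (fun q => dist x q) w q ∂μ := by
    intro z
    by_cases hz : z ∈ Z
    · have := (hZ z hz).2.2.2.2
      unfold AMass at this
      push Not at this
      obtain ⟨w, w1, w2, w3, w4⟩ := this
      exact ⟨w, fun _ => ⟨w1, w2, w3, w4⟩⟩
    · exact ⟨0, fun hc => absurd hc hz⟩
  choose w hw using hex
  set W : X → ℝ := fun q => ∑ z ∈ Z, w z q with hWdef
  have hWLC : LC W := LC_sum Z fun z hz => (hw z hz).1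
  have hcase : ∀ q, W q = 0 ∨ ∃ z ∈ Z, dist q z < t z ∧ W q = w z q := by
    intro q
    by_cases hq : ∃ z ∈ Z, w z q ≠ 0
    · obtain ⟨z, hz, hne⟩ := hq
      have hlt : dist q z < t z := by
        by_contra hc
        exact hne ((hw z hz).2.2.1 q (not_lt.1 hc))
      refine Or.inr ⟨z, hz, hlt, ?_⟩
      refine Finset.sum_eq_single z (fun z' hz' hne' => ?_) (fun hc => absurd hz hc)
      refine (hw z' hz').2.2.1 q ?_
      have h1 := hd z hz z' hz' (Ne.symm hne')
      have h2 := dist_triangle z q z'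
      rw [dist_comm z q] at h2
      linarith
    · push Not at hq
      exact Or.inl (Finset.sum_eq_zero hq)
  set c1 : X → ℝ := fun q => max 0 (min 1 (3 + (-(1 / r)) * dist y q)) with hc1
  set c2 : X → ℝ := fun q => max 0 (min 1 (-1 + (2 / (κ * r)) * dist x q)) with hc2
  set φ : X → ℝ := fun q => min (c1 q) (c2 q) with hφdef
  have L1 : LipschitzWith (Real.toNNReal |-(1 / r)|) c1 := clamp_lip (aff_lip (dist_lip y) _ _)
  have L2 : LipschitzWith (Real.toNNReal |2 / (κ * r)|) c2 := clamp_lip (aff_lip (dist_lip x) _ _)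
  have Lφ : LipschitzWith (Real.toNNReal (2 / (κ * r))) φ := by
    have h3 := L1.min L2
    refine h3.weaken (max_le ?_ ?_)
    · refine Real.toNNReal_le_toNNReal ?_
      rw [abs_neg, abs_of_pos (by positivity)]
      rw [div_le_div_iff₀ hr hκr]
      nlinarith
    · rw [abs_of_pos (by positivity)]
  have hφ0 : ∀ q, 0 ≤ φ q := fun q => le_min (le_max_left _ _) (le_max_left _ _)
  have hφ1 : ∀ q, φ q ≤ 1 := fun q =>
    (min_le_left _ _).trans (max_le zero_le_one (min_le_left _ _))
  have hφout : ∀ q, 3 * r ≤ dist q y → φ q = 0 := by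
    intro q hq
    have : c1 q = 0 := by
      simp only [hc1]
      refine max_eq_left ((min_le_right _ _).trans ?_)
      rw [dist_comm y q]
      have : 1 / r * (3 * r) ≤ 1 / r * dist q y := by gcongr
      have e : 1 / r * (3 * r) = 3 := by field_simp
      linarith
    exact le_antisymm ((min_le_left _ _).trans this.le) (hφ0 q)
  have hφin : ∀ q, dist x q ≤ κ * r / 2 → φ q = 0 := by
    intro q hq
    have : c2 q = 0 := by
      simp only [hc2]
      refine max_eq_left ((min_le_right _ _).trans ?_)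
      have : 2 / (κ * r) * dist x q ≤ 2 / (κ * r) * (κ * r / 2) := by gcongr
      have e : 2 / (κ * r) * (κ * r / 2) = 1 := by field_simp
      linarith
    exact le_antisymm ((min_le_right _ _).trans this.le) (hφ0 q)
  have hφone : ∀ q, dist q y ≤ 2 * r → κ * r ≤ dist x q → φ q = 1 := by
    intro q h1 h2
    refine le_antisymm (hφ1 q) (le_min ?_ ?_)
    · refine (le_min le_rfl ?_).trans (le_max_right _ _)
      rw [dist_comm y q]
      have : 1 / r * dist q y ≤ 1 / r * (2 * r) := by gcongr
      have e : 1 / r * (2 * r) = 2 := by field_simp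
      linarith
    · refine (le_min le_rfl ?_).trans (le_max_right _ _)
      have : 2 / (κ * r) * (κ * r) ≤ 2 / (κ * r) * dist x q := by gcongr
      have e : 2 / (κ * r) * (κ * r) = 2 := by field_simp
      linarith
  have hφLC : LC φ := ⟨⟨_, Lφ⟩, HasCompactSupport.of_support_subset_isCompact
    (isCompact_closedBall y (3 * r)) fun q hq => by
      by_contra hc
      rw [mem_closedBall, not_le] at hc
      exact hq (hφout q hc.le)⟩
  have hWz : ∀ q, W q ≠ 0 → dist q y ≤ 2 * r ∧ κ * r ≤ dist x q ∧ |W q| ≤ 1 := by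
    intro q hq
    rcases hcase q with h0 | ⟨z, hz, hlt, he⟩
    · exact absurd h0 hq
    · obtain ⟨z1, z2, z3, z4, -⟩ := hZ z hz
      refine ⟨?_, ?_, he ▸ (hw z hz).2.1 q⟩
      · linarith [dist_triangle q z y]
      · linarith [dist_triangle x q z]
  have hWle : ∀ q, |W q| ≤ φ q := by
    intro q
    by_cases hq : W q = 0
    · rw [hq, abs_zero]; exact hφ0 q
    · obtain ⟨h1, h2, h3⟩ := hWz q hq
      rw [hφone q h1 h2]; exact h3
  have hWin : ∀ q, dist x q < κ * r / 2 → W q = 0 := by
    intro q hq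
    by_contra hc
    have := (hWz q hc).2.1
    linarith
  have hlap := h.lap hW (δ := κ * r / 2) (by positivity) hWLC hφLC
    (fun q hq => ⟨hWin q hq, hφin q hq.le⟩) (fun q => (le_abs_self _).trans (hWle q))
  have hsum : ∑ z ∈ Z, a z ≤ ∫ q, G (fun q => dist x q) W q ∂μ := by
    rw [h.integral_sum (dist_lip x) Z fun z hz => (hw z hz).1]
    exact Finset.sum_le_sum fun z hz => (hw z hz).2.2.2.le
  -- the compact set
  have hcpt := isCompact_closedBall y (3 * r)
  have b1 : ∫ q, G (fun q => dist x q) φ q ∂μ ≤ 2 / (κ * r) * μ.real (closedBall y (3 * r)) := by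
    refine (le_abs_self _).trans (h.int_bound hcpt (fun p hp => ?_) fun p _ => ?_)
    · refine h.zero_of_notMem fun hc => hp ?_
      refine closure_minimal (fun q hq => ?_) isClosed_closedBall hc
      by_contra hc
      rw [mem_closedBall, not_le] at hc
      exact hq (hφout q hc.le)
    · have := h.abs_le (dist_lip x) Lφ p
      rwa [NNReal.coe_one, one_mul, Real.coe_toNNReal _ (by positivity)] at this
  have b2 : ∫ q, (((n : ℝ) - 1) * (dist x q)⁻¹ + K * dist x q) * (φ q - W q) ∂μ ≤
      (4 * n + 6) / (κ * r) * μ.real (closedBall y (3 * r)) := by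
    refine (le_abs_self _).trans (h.int_bound hcpt (fun p hp => ?_) fun p hp => ?_)
    · rw [mem_closedBall, not_le] at hp
      have h1 := hφout p hp.le
      have h2 : W p = 0 := by
        have := hWle p
        rw [h1] at this
        exact abs_eq_zero.1 (le_antisymm this (abs_nonneg _))
      rw [h1, h2]; simp
    · by_cases hin : dist x p ≤ κ * r / 2
      · have h1 := hφin p hin
        have h2 : W p = 0 := by
          have := hWle p
          rw [h1] at this
          exact abs_eq_zero.1 (le_antisymm this (abs_nonneg _))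
        rw [h1, h2]; simp; positivity
      · push Not at hin
        have hdp : 0 < dist x p := lt_trans (by positivity) hin
        have hn1 : (0 : ℝ) ≤ (n : ℝ) - 1 := by
          have : (2 : ℝ) ≤ n := by exact_mod_cast hn
          linarith
        have h1 : |φ p - W p| ≤ 2 := by
          have := hWle p
          have h3 := hφ1 p
          have h4 := hφ0 p
          rw [_root_.abs_le] at this ⊢
          constructor <;> linarith [this.1, this.2]
        have h2 : (dist x p)⁻¹ ≤ 2 / (κ * r) := by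
          rw [inv_le_comm₀ hdp (by positivity)]
          rw [inv_div]
          exact hin.le
        have h3 : dist x p ≤ 5 * r := by
          rw [mem_closedBall] at hp
          linarith [dist_triangle x y p, dist_comm p y]
        have h4 : K * dist x p ≤ 5 / (κ * r) := by
          calc K * dist x p ≤ K * (5 * r) := by gcongr
            _ = 5 * (K * r ^ 2) / r := by field_simp
            _ ≤ 5 * 1 / r := by gcongr
            _ ≤ 5 / (κ * r) := by
              rw [mul_one]
              gcongr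
              nlinarith
        rw [abs_mul, abs_of_nonneg (by positivity)]
        calc (((n : ℝ) - 1) * (dist x p)⁻¹ + K * dist x p) * |φ p - W p| ≤
            (((n : ℝ) - 1) * (2 / (κ * r)) + 5 / (κ * r)) * 2 := by gcongr
          _ = (4 * n + 6) / (κ * r) := by ring
  have b3 : μ.real (closedBall y (3 * r)) ≤ 4 ^ n * Real.exp 16 * μ.real (ball y r) := by
    have h1 : μ.real (closedBall y (3 * r)) ≤ μ.real (ball y (4 * r)) :=
      h.real_mono (closedBall_subset_ball (by linarith))
    have h2 := hBG y r (4 * r) hr (by linarith)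
    have e : 4 * r / r = 4 := by field_simp
    rw [e] at h2
    refine h1.trans (h2.trans ?_)
    have h3 : Real.exp (K * (4 * r) ^ 2) ≤ Real.exp 16 := Real.exp_le_exp.2 (by nlinarith)
    gcongr
  calc ∑ z ∈ Z, a z ≤ 2 / (κ * r) * μ.real (closedBall y (3 * r)) +
        (4 * n + 6) / (κ * r) * μ.real (closedBall y (3 * r)) :=
        hsum.trans (hlap.trans (add_le_add b1 b2))
    _ = (4 * n + 8) / (κ * r) * μ.real (closedBall y (3 * r)) := by ring
    _ ≤ (4 * n + 8) / (κ * r) * (4 ^ n * Real.exp 16 * μ.real (ball y r)) := by gcongr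
    _ = _ := by ring

/-- MASS -/
theorem mass (hW : Stmt.WLC) (hA : Stmt.CALA) (hB : Stmt.CALB) (hV : Stmt.BG) : Stmt.MASS := by
  intro n hn
  refine ⟨(4 * n + 8) * 4 ^ n * Real.exp 16, by positivity, ?_⟩
  intro E _ _ _ _ _ M _ _ _ _ _ _ _ _ _ hE hEn μ K hμ hK hR x y r κ hr hκ hκ1 hKr hxy Z t a hZ hd
  have hc := cal_of hA hB E M hE μ hμ
  refine hc.mass hn hK hr hκ hκ1 hKr hxy (fun ζ h1 h2 => ?_) (hV n hn E M hE hEn μ K hμ hK hR)
    Z t a hZ hd
  have := hW E M hE μ K hμ hK hR x ζ h1 h2
  rwa [hEn] at this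

end Vale.Agent.P210.R2.H597
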