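import Vale.Agent.P210.R2.H53.RCont

open Set Metric

noncomputable section

namespace Vale.Agent.P210.R2.H597

open H53

theorem sum_union_le {α : Type} [DecidableEq α] {f : α → ℝ} {s t : Finset α}
    (hf : ∀ a ∈ s ∩ t, 0 ≤ f a) : ∑ a ∈ s ∪ t, f a ≤ ∑ a ∈ s, f a + ∑ a ∈ t, f a := by
  have h1 := Finset.sum_union_inter (s₁ := s) (s₂ := t) (f := f)
  have h2 := Finset.sum_nonneg hf
  linarith

theorem sum_biUnion_le {ι α : Type} [DecidableEq α] (s : Finset ι) (F : ι → Finset α) {f : α → ℝ}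
    (hf : ∀ i ∈ s, ∀ a ∈ F i, 0 ≤ f a) :
    ∑ a ∈ s.biUnion F, f a ≤ ∑ i ∈ s, ∑ a ∈ F i, f a := by
  classical
  induction s using Finset.induction_on with
  | empty => simp
  | insert i s hi ih =>
    rw [Finset.biUnion_insert, Finset.sum_insert hi]
    refine (sum_union_le fun a ha => ?_).trans ?_
    · exact hf i (Finset.mem_insert_self i s) a (Finset.mem_inter.1 ha).1
    · have := ih fun i' hi' => hf i' (Finset.mem_insert_of_mem hi')
      linarith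

/-- iterated doubling -/
theorem dbl_iter {X : Type} [MetricSpace X] {D : ℕ} {r₀ : ℝ} (h : Dbl X D r₀) (k : ℕ) :
    ∀ (x : X) (t : ℝ), 0 < t → t ≤ r₀ → ∃ T : Finset X, T.card ≤ D ^ k ∧
      closedBall x t ⊆ ⋃ z ∈ T, closedBall z (t / 2 ^ k) := by
  classical
  induction k with
  | zero =>
    intro x t _ _
    exact ⟨{x}, by simp, by simp⟩
  | succ k ih =>
    intro x t ht htr
    obtain ⟨T, h1, h2⟩ := h x t ht htr
    have h3 : ∀ z : X, ∃ T' : Finset X, T'.card ≤ D ^ k ∧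
        closedBall z (t / 2) ⊆ ⋃ z' ∈ T', closedBall z' (t / 2 / 2 ^ k) := fun z =>
      ih z (t / 2) (by linarith) (by linarith)
    choose F hF1 hF2 using h3
    refine ⟨T.biUnion F, ?_, fun y hy => ?_⟩
    · refine (Finset.card_biUnion_le_card_mul T F (D ^ k) fun z _ => hF1 z).trans ?_
      rw [pow_succ']
      gcongr
    · obtain ⟨z, hz, hyz⟩ := mem_iUnion₂.1 (h2 hy)
      obtain ⟨z', hz', hyz'⟩ := mem_iUnion₂.1 (hF2 z hyz)
      refine mem_iUnion₂.2 ⟨z', Finset.mem_biUnion.2 ⟨z, hz, hz'⟩, ?_⟩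
      rw [div_div, ← pow_succ'] at hyz'
      exact hyz'

theorem pair_num {n j : ℕ} {θ c₀ γ : ℝ} (hjn : j + 2 ≤ n) (hθ : 0 < θ) (hθ1 : θ ≤ 1)
    (hγ0 : 0 < γ) (hγ1 : γ ≤ 1) (hγ : γ * (4 * 9 ^ j * 2 ^ (n - 1)) ≤ c₀ * θ ^ j) {M : ℕ}
    (hM : (M : ℝ) ≤ 2 / (θ * γ) + 2) :
    (2 * (M : ℝ) + 1) ^ j * (2 * γ) ^ (n - 1) ≤ c₀ / 4 := by
  have hθγ : 0 < θ * γ := by positivity
  have h1 : 2 * (M : ℝ) + 1 ≤ 9 / (θ * γ) := by
    have h2 : 1 ≤ 1 / (θ * γ) := by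
      rw [le_div_iff₀ hθγ]; nlinarith
    have h3 : 2 / (θ * γ) = 2 * (1 / (θ * γ)) := by ring
    have h4 : 9 / (θ * γ) = 9 * (1 / (θ * γ)) := by ring
    rw [h3] at hM
    rw [h4]
    linarith
  obtain ⟨l, rfl⟩ : ∃ l, n = j + 2 + l := ⟨n - (j + 2), by omega⟩
  have e1 : j + 2 + l - 1 = j + (l + 1) := by omega
  rw [e1] at hγ ⊢
  have h5 : (2 * (M : ℝ) + 1) ^ j * (2 * γ) ^ (j + (l + 1)) ≤
      (9 / (θ * γ)) ^ j * (2 * γ) ^ (j + (l + 1)) := by gcongr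
  have h6 : (9 / (θ * γ)) ^ j * (2 * γ) ^ (j + (l + 1)) =
      9 ^ j * 2 ^ (j + (l + 1)) / θ ^ j * γ ^ (l + 1) := by
    rw [div_pow, mul_pow, mul_pow, pow_add γ]; field_simp
  have h7 : γ ^ (l + 1) ≤ γ := by
    rw [pow_succ]
    have : γ ^ l ≤ 1 := pow_le_one₀ hγ0.le hγ1
    nlinarith
  have hθj : 0 < θ ^ j := by positivity
  calc _ ≤ _ := h5
    _ = 9 ^ j * 2 ^ (j + (l + 1)) / θ ^ j * γ ^ (l + 1) := h6
    _ ≤ 9 ^ j * 2 ^ (j + (l + 1)) / θ ^ j * γ := by gcongr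
    _ = γ * (4 * 9 ^ j * 2 ^ (j + (l + 1))) / (4 * θ ^ j) := by field_simp
    _ ≤ c₀ * θ ^ j / (4 * θ ^ j) := by gcongr
    _ = c₀ / 4 := by field_simp

/-- PAIR -/
theorem pair : Stmt.PAIR := by
  classical
  intro n j D θ c₀ hjn hθ hθ1 hc₀ hD
  have hA : (0 : ℝ) < 4 * 9 ^ j * 2 ^ (n - 1) := by positivity
  have hB : 0 < c₀ * θ ^ j := by positivity
  refine ⟨min 1 (c₀ * θ ^ j / (4 * 9 ^ j * 2 ^ (n - 1))), lt_min one_pos (by positivity),
    min_le_left _ _, ?_⟩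
  set γ := min 1 (c₀ * θ ^ j / (4 * 9 ^ j * 2 ^ (n - 1))) with hγdef
  have hγ0 : 0 < γ := lt_min one_pos (by positivity)
  have hγ1 : γ ≤ 1 := min_le_left _ _
  have hγ : γ * (4 * 9 ^ j * 2 ^ (n - 1)) ≤ c₀ * θ ^ j := by
    have : γ ≤ c₀ * θ ^ j / (4 * 9 ^ j * 2 ^ (n - 1)) := min_le_right _ _
    rwa [le_div_iff₀ hA] at this
  intro γ₁ hγ₁ hγ₁le
  obtain ⟨k, hk⟩ := pow_unbounded_of_one_lt (4 / γ₁) (one_lt_two)
  have hDk : (0 : ℝ) < (D : ℝ) ^ k := by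
    have : (0 : ℝ) < D := by exact_mod_cast hD
    positivity
  refine ⟨c₀ / (4 * D ^ k * γ₁ ^ (n - 1)), by positivity, ?_⟩
  set c₂ := c₀ / (4 * (D : ℝ) ^ k * γ₁ ^ (n - 1)) with hc₂
  intro X _ ρ t w A h hρ hρt hDbl hAw hHC hlip
  have ht : 0 < t := by
    by_contra hc
    push Not at hc
    have : γ₁ * t / 2 ≤ 0 := by nlinarith
    linarith
  have hγ₁γ : γ₁ ≤ γ := by nlinarith
  -- the small balls
  obtain ⟨P, hPc, hPcov⟩ := dbl_iter hDbl k w (2 * t) (by linarith) le_rfl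
  have hrad : 2 * t / 2 ^ k ≤ γ₁ * t / 2 := by
    rw [div_le_iff₀ (by positivity)]
    rw [div_lt_iff₀ hγ₁] at hk
    nlinarith
  have hPcov' : ∀ a ∈ A, ∃ p ∈ P, dist a p ≤ γ₁ * t / 2 := by
    intro a ha
    obtain ⟨p, hp, hap⟩ := mem_iUnion₂.1 (hPcov (hAw ha))
    exact ⟨p, hp, (mem_closedBall.1 hap).trans hrad⟩
  -- centres in `A`
  have hz : ∀ p : X, ∃ z : X, (∃ a ∈ A, dist a p ≤ γ₁ * t / 2) → z ∈ A ∧
      dist z p ≤ γ₁ * t / 2 := by
    intro p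
    by_cases hp : ∃ a ∈ A, dist a p ≤ γ₁ * t / 2
    · obtain ⟨a, ha, hap⟩ := hp
      exact ⟨a, fun _ => ⟨ha, hap⟩⟩
    · exact ⟨p, fun hc => absurd hc hp⟩
  choose z hz using hz
  set good : X → Prop := fun p =>
    HCge n ρ (A ∩ closedBall (z p) (γ₁ * t)) (c₂ * (γ₁ * t) ^ (n - 1)) with hgood
  -- covers of the bad pieces
  have hbad : ∀ p : X, ∃ S : Finset (X × ℝ), ¬ good p → (∀ c ∈ S, ρ ≤ c.2) ∧
      A ∩ closedBall (z p) (γ₁ * t) ⊆ ⋃ c ∈ S, closedBall c.1 c.2 ∧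
      ∑ c ∈ S, c.2 ^ (n - 1) < c₂ * (γ₁ * t) ^ (n - 1) := by
    intro p
    by_cases hp : good p
    · exact ⟨∅, fun hc => absurd hp hc⟩
    · have hp' := hp
      simp only [hgood, HCge] at hp'
      push Not at hp'
      obtain ⟨S, s1, s2, s3⟩ := hp'
      exact ⟨S, fun _ => ⟨s1, s2, s3⟩⟩
  choose S hS using hbad
  by_contra hcon
  push Not at hcon
  -- the good centres
  set Q : Finset X := {p ∈ P | good p ∧ ∃ a ∈ A, dist a p ≤ γ₁ * t / 2} with hQ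
  set s := θ * γ * t with hs
  have hs0 : 0 < s := by positivity
  set cell : X → Fin j → ℤ := fun q i => ⌊(h i q - h i w) / s⌋ with hcell
  obtain ⟨M, hM1, hM2⟩ : ∃ M : ℕ, 2 / (θ * γ) + 1 ≤ (M : ℝ) ∧ (M : ℝ) ≤ 2 / (θ * γ) + 2 := by
    refine ⟨⌈2 / (θ * γ) + 1⌉₊, Nat.le_ceil _, ?_⟩
    have := (Nat.ceil_lt_add_one (by positivity : 0 ≤ 2 / (θ * γ) + 1)).le
    linarith
  set box : Finset (Fin j → ℤ) := Fintype.piFinset fun _ => Finset.Icc (-(M : ℤ)) M with hbox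
  have hboxc : box.card = (2 * M + 1) ^ j := by
    rw [hbox, Fintype.card_piFinset_const, Int.card_Icc]
    congr 1
    omega
  have hcellbox : ∀ q, dist q w ≤ 2 * t → cell q ∈ box := by
    intro q hq
    rw [hbox, Fintype.mem_piFinset]
    intro i
    have h1 := (hlip i).dist_le_mul q w
    rw [Real.dist_eq, NNReal.coe_one, one_mul] at h1
    have h2 : |(h i q - h i w) / s| ≤ 2 / (θ * γ) := by
      rw [abs_div, abs_of_pos hs0, div_le_div_iff₀ hs0 (by positivity), hs]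
      nlinarith [mul_pos hθ hγ0]
    rw [abs_le] at h2
    rw [Finset.mem_Icc]
    constructor
    · have : -(M : ℝ) ≤ ⌊(h i q - h i w) / s⌋ := by
        have := Int.lt_floor_add_one ((h i q - h i w) / s)
        linarith
      exact_mod_cast this
    · have : (⌊(h i q - h i w) / s⌋ : ℝ) ≤ M := by
        have := Int.floor_le ((h i q - h i w) / s)
        linarith
      exact_mod_cast this
  -- representatives of the cells
  have hrep : ∀ v : Fin j → ℤ, ∃ r : X, (∃ p ∈ Q, cell (z p) = v) → ∃ p ∈ Q, cell (z p) = v ∧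
      r = z p := by
    intro v
    by_cases hv : ∃ p ∈ Q, cell (z p) = v
    · obtain ⟨p, hp, hpv⟩ := hv
      exact ⟨z p, fun _ => ⟨p, hp, hpv, rfl⟩⟩
    · exact ⟨w, fun hc => absurd hc hv⟩
  choose r hr using hrep
  -- two good centres in the same cell are close
  have hclose : ∀ p ∈ Q, ∀ p' ∈ Q, cell (z p) = cell (z p') → dist (z p) (z p') < γ * t := by
    intro p hp p' hp' hc
    rw [hQ, Finset.mem_filter] at hp hp'
    by_contra hd
    push Not at hd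
    obtain ⟨i, hi⟩ := hcon (z p) (hz p hp.2.2).1 (z p') (hz p' hp'.2.2).1 hp'.2.1 hd
    have h1 : |(h i (z p) - h i w) / s - (h i (z p') - h i w) / s| < 1 :=
      Int.abs_sub_lt_one_of_floor_eq_floor (congrFun hc i)
    have h2 : (h i (z p) - h i w) / s - (h i (z p') - h i w) / s =
        (h i (z p) - h i (z p')) / s := by ring
    rw [h2, abs_div, abs_of_pos hs0, div_lt_one hs0, hs] at h1
    have h3 : θ * γ * t ≤ θ * dist (z p) (z p') := by
      rw [mul_assoc]; gcongr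
    linarith
  -- the cover of `A`
  set cov : Finset (X × ℝ) := (P.filter fun p => ¬ good p).biUnion S ∪
    box.image fun v => (r v, 2 * γ * t) with hcov
  have hρ2 : ρ ≤ 2 * γ * t := by nlinarith
  have hnn : ∀ c ∈ cov, ρ ≤ c.2 := by
    intro c hc
    rw [hcov, Finset.mem_union] at hc
    rcases hc with hc | hc
    · obtain ⟨p, hp, hcp⟩ := Finset.mem_biUnion.1 hc
      exact (hS p (Finset.mem_filter.1 hp).2).1 c hcp
    · obtain ⟨v, -, rfl⟩ := Finset.mem_image.1 hc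
      exact hρ2
  have hsub : A ⊆ ⋃ c ∈ cov, closedBall c.1 c.2 := by
    intro a ha
    obtain ⟨p, hp, hap⟩ := hPcov' a ha
    have hzp := hz p ⟨a, ha, hap⟩
    have haz : dist a (z p) ≤ γ₁ * t := by
      linarith [dist_triangle a p (z p), dist_comm p (z p)]
    by_cases hg : good p
    · have hpQ : p ∈ Q := Finset.mem_filter.2 ⟨hp, hg, a, ha, hap⟩
      obtain ⟨p', hp', hc', hr'⟩ := hr (cell (z p)) ⟨p, hpQ, rfl⟩
      refine mem_iUnion₂.2 ⟨(r (cell (z p)), 2 * γ * t), ?_, ?_⟩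
      · refine Finset.mem_union_right _ (Finset.mem_image.2 ⟨cell (z p), hcellbox _ ?_, rfl⟩)
        exact hAw hzp.1
      · rw [mem_closedBall]
        change dist a (r (cell (z p))) ≤ 2 * γ * t
        rw [hr']
        have h1 := hclose p hpQ p' hp' hc'.symm
        have h2 : γ₁ * t ≤ γ * t := by gcongr
        linarith [dist_triangle a (z p) (z p')]
    · obtain ⟨-, s2, -⟩ := hS p hg
      obtain ⟨c, hc, hac⟩ := mem_iUnion₂.1 (s2 ⟨ha, haz⟩)
      exact mem_iUnion₂.2 ⟨c, Finset.mem_union_left _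
        (Finset.mem_biUnion.2 ⟨p, Finset.mem_filter.2 ⟨hp, hg⟩, hc⟩), hac⟩
  have hfin := hHC cov hnn hsub
  have hpos : ∀ c ∈ cov, 0 ≤ c.2 ^ (n - 1) := fun c hc => pow_nonneg (hρ.le.trans (hnn c hc)) _
  have b1 : ∑ c ∈ (P.filter fun p => ¬ good p).biUnion S, c.2 ^ (n - 1) ≤
      c₀ / 4 * t ^ (n - 1) := by
    refine (sum_biUnion_le _ _ fun p hp c hc => ?_).trans ?_
    · exact pow_nonneg (hρ.le.trans ((hS p (Finset.mem_filter.1 hp).2).1 c hc)) _
    · calc ∑ p ∈ P.filter fun p => ¬ good p, ∑ c ∈ S p, c.2 ^ (n - 1) ≤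
          ∑ p ∈ P.filter fun p => ¬ good p, c₂ * (γ₁ * t) ^ (n - 1) :=
            Finset.sum_le_sum fun p hp => (hS p (Finset.mem_filter.1 hp).2).2.2.le
        _ = (P.filter fun p => ¬ good p).card * (c₂ * (γ₁ * t) ^ (n - 1)) := by
            rw [Finset.sum_const, nsmul_eq_mul]
        _ ≤ (D : ℝ) ^ k * (c₂ * (γ₁ * t) ^ (n - 1)) := by
            gcongr
            exact_mod_cast (Finset.card_filter_le _ _).trans hPc
        _ = c₀ / 4 * t ^ (n - 1) := by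
            rw [hc₂, mul_pow]; field_simp
  have b2 : ∑ c ∈ box.image fun v => (r v, 2 * γ * t), c.2 ^ (n - 1) ≤
      c₀ / 4 * t ^ (n - 1) := by
    have h1 : ∀ c ∈ box.image fun v => (r v, 2 * γ * t), c.2 ^ (n - 1) ≤
        (2 * γ * t) ^ (n - 1) := by
      intro c hc
      obtain ⟨v, -, rfl⟩ := Finset.mem_image.1 hc
      exact le_rfl
    calc ∑ c ∈ box.image fun v => (r v, 2 * γ * t), c.2 ^ (n - 1) ≤
        (box.image fun v => (r v, 2 * γ * t)).card • (2 * γ * t) ^ (n - 1) :=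
          Finset.sum_le_card_nsmul _ _ _ h1
      _ = (box.image fun v => (r v, 2 * γ * t)).card * (2 * γ * t) ^ (n - 1) := nsmul_eq_mul _ _
      _ ≤ ((2 * (M : ℝ) + 1) ^ j) * (2 * γ * t) ^ (n - 1) := by
          gcongr
          have := (Finset.card_image_le (s := box) (f := fun v => (r v, 2 * γ * t))).trans
            hboxc.le
          exact_mod_cast this
      _ = (2 * (M : ℝ) + 1) ^ j * (2 * γ) ^ (n - 1) * t ^ (n - 1) := by
          rw [mul_pow (2 * γ) t]; ring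
      _ ≤ c₀ / 4 * t ^ (n - 1) := by
          gcongr
          exact pair_num hjn hθ hθ1 hγ0 hγ1 hγ hM2
  have b3 : ∑ c ∈ cov, c.2 ^ (n - 1) ≤ c₀ / 4 * t ^ (n - 1) + c₀ / 4 * t ^ (n - 1) :=
    (sum_union_le fun c hc => hpos c
      (Finset.mem_union_left _ (Finset.mem_inter.1 hc).1)).trans (add_le_add b1 b2)
  have htp : 0 < t ^ (n - 1) := by positivity
  nlinarith

end Vale.Agent.P210.R2.H597
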