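import Vale.Agent.P210.R2.H597.Pair
import Vale.Agent.P210.R2.H401.CSpec

open Set Metric

noncomputable section

namespace Vale.Agent.P210.R2.H597

open H53

/-- PAIR in the form of the content induction -/
theorem pairC : H401.Stmt.PAIR := by
  classical
  intro n j hjn c₀ hc₀ θ₀ hθ₀
  set θ := min 1 θ₀ with hθdef
  have hθ : 0 < θ := lt_min one_pos hθ₀
  have hθ1 : θ ≤ 1 := min_le_left _ _
  have hA : (0 : ℝ) < 4 * 9 ^ j * 2 ^ (n - 1) := by positivity
  have hB : 0 < c₀ * θ ^ j := by positivity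
  set γ := min 1 (c₀ * θ ^ j / (4 * 9 ^ j * 2 ^ (n - 1))) with hγdef
  have hγ0 : 0 < γ := lt_min one_pos (by positivity)
  have hγ1 : γ ≤ 1 := min_le_left _ _
  have hγ : γ * (4 * 9 ^ j * 2 ^ (n - 1)) ≤ c₀ * θ ^ j := by
    have : γ ≤ c₀ * θ ^ j / (4 * 9 ^ j * 2 ^ (n - 1)) := min_le_right _ _
    rwa [le_div_iff₀ hA] at this
  refine ⟨γ, hγ0, hγ1, fun N₁ => ⟨c₀ / (4 * (N₁ + 1)), by positivity, ?_⟩⟩
  set c₂ := c₀ / (4 * ((N₁ : ℝ) + 1)) with hc₂
  have hc₂0 : 0 < c₂ := by positivity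
  intro X _ A w t ρ g₁ h ht hρ hρt hg₁ hAw hHC hcovA hlip
  obtain ⟨P, hPc, hPcov⟩ := hcovA
  set good : X → Prop := fun p =>
    HCge n ρ (A ∩ closedBall p (g₁ * t / 2)) (c₂ * t ^ (n - 1)) with hgood
  have hbad : ∀ p : X, ∃ S : Finset (X × ℝ), ¬ good p → (∀ c ∈ S, ρ ≤ c.2) ∧
      A ∩ closedBall p (g₁ * t / 2) ⊆ ⋃ c ∈ S, closedBall c.1 c.2 ∧
      ∑ c ∈ S, c.2 ^ (n - 1) < c₂ * t ^ (n - 1) := by
    intro p
    by_cases hp : good p
    · exact ⟨∅, fun hc => absurd hp hc⟩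
    · have hp' := hp
      simp only [hgood, HCge] at hp'
      push Not at hp'
      obtain ⟨S, s1, s2, s3⟩ := hp'
      exact ⟨S, fun _ => ⟨s1, s2, s3⟩⟩
  choose S hS using hbad
  by_contra hcon
  push Not at hcon
  -- the heavy part
  set H : Set X := {a ∈ A | ∃ p ∈ P, good p ∧ dist a p ≤ g₁ * t / 2} with hH
  have hheavy : ∀ a ∈ H, HCge n ρ (A ∩ closedBall a (g₁ * t)) (c₂ * t ^ (n - 1)) := by
    intro a ha F hF1 hF2
    obtain ⟨haA, p, hp, hg, hap⟩ := ha
    refine hg F hF1 fun q hq => hF2 ⟨hq.1, ?_⟩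
    have h1 := mem_closedBall.1 hq.2
    rw [mem_closedBall]
    linarith [dist_triangle q p a, dist_comm p a]
  set s := θ * γ * t with hs
  have hs0 : 0 < s := by positivity
  set cell : X → Fin j → ℤ := fun q i => ⌊(h i q - h i w) / s⌋ with hcell
  obtain ⟨M, hM1, hM2⟩ : ∃ M : ℕ, 2 / (θ * γ) + 1 ≤ (M : ℝ) ∧ (M : ℝ) ≤ 2 / (θ * γ) + 2 := by
    refine ⟨⌈2 / (θ * γ) + 1⌉₊, Nat.le_ceil _, ?_⟩
    have := (Nat.ceil_lt_add_one (by positivity : 0 ≤ 2 / (θ * γ) + 1)).le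
    linarith
  set box : Finset (Fin j → ℤ) := Fintype.piFinset fun _ => Finset.Icc (-(M : ℤ)) M with hbox
  have hboxc : box.card = (2 * M + 1) ^ j := by
    rw [hbox, Fintype.card_piFinset_const, Int.card_Icc]
    congr 1
    omega
  have hcellbox : ∀ q, dist q w ≤ 2 * t → cell q ∈ box := by
    intro q hq
    rw [hbox, Fintype.mem_piFinset]
    intro i
    have h1 := (hlip i).dist_le_mul q w
    rw [Real.dist_eq, NNReal.coe_one, one_mul] at h1
    have h2 : |(h i q - h i w) / s| ≤ 2 / (θ * γ) := by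
      rw [abs_div, abs_of_pos hs0, div_le_div_iff₀ hs0 (by positivity), hs]
      nlinarith [mul_pos hθ hγ0]
    rw [abs_le] at h2
    rw [Finset.mem_Icc]
    constructor
    · have : -(M : ℝ) ≤ ⌊(h i q - h i w) / s⌋ := by
        have := Int.lt_floor_add_one ((h i q - h i w) / s)
        linarith
      exact_mod_cast this
    · have : (⌊(h i q - h i w) / s⌋ : ℝ) ≤ M := by
        have := Int.floor_le ((h i q - h i w) / s)
        linarith
      exact_mod_cast this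
  have hrep : ∀ v : Fin j → ℤ, ∃ r : X, (∃ a ∈ H, cell a = v) → r ∈ H ∧ cell r = v := by
    intro v
    by_cases hv : ∃ a ∈ H, cell a = v
    · obtain ⟨a, ha, hav⟩ := hv
      exact ⟨a, fun _ => ⟨ha, hav⟩⟩
    · exact ⟨w, fun hc => absurd hc hv⟩
  choose r hr using hrep
  have hclose : ∀ a ∈ H, ∀ a' ∈ H, cell a = cell a' → dist a a' < γ * t := by
    intro a ha a' ha' hc
    by_contra hd
    push Not at hd
    obtain ⟨i, hi⟩ := hcon a ha.1 a' ha'.1 (hheavy a' ha') hd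
    have h1 : |(h i a - h i w) / s - (h i a' - h i w) / s| < 1 :=
      Int.abs_sub_lt_one_of_floor_eq_floor (congrFun hc i)
    have h2 : (h i a - h i w) / s - (h i a' - h i w) / s = (h i a - h i a') / s := by ring
    rw [h2, abs_div, abs_of_pos hs0, div_lt_one hs0, hs] at h1
    have h3 : θ * γ * t ≤ θ * dist a a' := by
      rw [mul_assoc]; gcongr
    have h4 : θ * dist a a' ≤ θ₀ * dist a a' := by
      gcongr
      exact min_le_right _ _
    linarith
  set cov : Finset (X × ℝ) := (P.filter fun p => ¬ good p).biUnion S ∪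
    box.image fun v => (r v, 2 * γ * t) with hcov
  have hρ2 : ρ ≤ 2 * γ * t := by nlinarith [mul_pos hγ0 ht]
  have hnn : ∀ c ∈ cov, ρ ≤ c.2 := by
    intro c hc
    rw [hcov, Finset.mem_union] at hc
    rcases hc with hc | hc
    · obtain ⟨p, hp, hcp⟩ := Finset.mem_biUnion.1 hc
      exact (hS p (Finset.mem_filter.1 hp).2).1 c hcp
    · obtain ⟨v, -, rfl⟩ := Finset.mem_image.1 hc
      exact hρ2
  have hsub : A ⊆ ⋃ c ∈ cov, closedBall c.1 c.2 := by
    intro a ha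
    obtain ⟨p, hp, hap⟩ := mem_iUnion₂.1 (hPcov ha)
    by_cases hg : good p
    · have haH : a ∈ H := ⟨ha, p, hp, hg, mem_closedBall.1 hap⟩
      obtain ⟨h1, h2⟩ := hr (cell a) ⟨a, haH, rfl⟩
      refine mem_iUnion₂.2 ⟨(r (cell a), 2 * γ * t), ?_, ?_⟩
      · exact Finset.mem_union_right _ (Finset.mem_image.2 ⟨cell a, hcellbox _ (hAw ha), rfl⟩)
      · rw [mem_closedBall]
        have h3 := hclose a haH _ h1 h2.symm
        change dist a (r (cell a)) ≤ 2 * γ * t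
        nlinarith [mul_pos hγ0 ht]
    · obtain ⟨-, s2, -⟩ := hS p hg
      obtain ⟨c, hc, hac⟩ := mem_iUnion₂.1 (s2 ⟨ha, hap⟩)
      exact mem_iUnion₂.2 ⟨c, Finset.mem_union_left _
        (Finset.mem_biUnion.2 ⟨p, Finset.mem_filter.2 ⟨hp, hg⟩, hc⟩), hac⟩
  have hfin := hHC cov hnn hsub
  have hpos : ∀ c ∈ cov, 0 ≤ c.2 ^ (n - 1) := fun c hc => pow_nonneg (hρ.le.trans (hnn c hc)) _
  have b1 : ∑ c ∈ (P.filter fun p => ¬ good p).biUnion S, c.2 ^ (n - 1) ≤
      c₀ / 4 * t ^ (n - 1) := by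
    refine (sum_biUnion_le _ _ fun p hp c hc => ?_).trans ?_
    · exact pow_nonneg (hρ.le.trans ((hS p (Finset.mem_filter.1 hp).2).1 c hc)) _
    · calc ∑ p ∈ P.filter fun p => ¬ good p, ∑ c ∈ S p, c.2 ^ (n - 1) ≤
          ∑ p ∈ P.filter fun p => ¬ good p, c₂ * t ^ (n - 1) :=
            Finset.sum_le_sum fun p hp => (hS p (Finset.mem_filter.1 hp).2).2.2.le
        _ = (P.filter fun p => ¬ good p).card * (c₂ * t ^ (n - 1)) := by
            rw [Finset.sum_const, nsmul_eq_mul]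
        _ ≤ ((N₁ : ℝ) + 1) * (c₂ * t ^ (n - 1)) := by
            gcongr
            have : ((P.filter fun p => ¬ good p).card : ℝ) ≤ N₁ := by
              exact_mod_cast (Finset.card_filter_le _ _).trans hPc
            linarith
        _ = c₀ / 4 * t ^ (n - 1) := by
            rw [hc₂]; field_simp
  have b2 : ∑ c ∈ box.image fun v => (r v, 2 * γ * t), c.2 ^ (n - 1) ≤
      c₀ / 4 * t ^ (n - 1) := by
    have h1 : ∀ c ∈ box.image fun v => (r v, 2 * γ * t), c.2 ^ (n - 1) ≤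
        (2 * γ * t) ^ (n - 1) := by
      intro c hc
      obtain ⟨v, -, rfl⟩ := Finset.mem_image.1 hc
      exact le_rfl
    calc ∑ c ∈ box.image fun v => (r v, 2 * γ * t), c.2 ^ (n - 1) ≤
        (box.image fun v => (r v, 2 * γ * t)).card • (2 * γ * t) ^ (n - 1) :=
          Finset.sum_le_card_nsmul _ _ _ h1
      _ = (box.image fun v => (r v, 2 * γ * t)).card * (2 * γ * t) ^ (n - 1) := nsmul_eq_mul _ _
      _ ≤ ((2 * (M : ℝ) + 1) ^ j) * (2 * γ * t) ^ (n - 1) := by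
          gcongr
          have := (Finset.card_image_le (s := box) (f := fun v => (r v, 2 * γ * t))).trans
            hboxc.le
          exact_mod_cast this
      _ = (2 * (M : ℝ) + 1) ^ j * (2 * γ) ^ (n - 1) * t ^ (n - 1) := by
          rw [mul_pow (2 * γ) t]; ring
      _ ≤ c₀ / 4 * t ^ (n - 1) := by
          gcongr
          exact pair_num hjn hθ hθ1 hγ0 hγ1 hγ hM2
  have b3 : ∑ c ∈ cov, c.2 ^ (n - 1) ≤ c₀ / 4 * t ^ (n - 1) + c₀ / 4 * t ^ (n - 1) :=
    (sum_union_le fun c hc => hpos c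
      (Finset.mem_union_left _ (Finset.mem_inter.1 hc).1)).trans (add_le_add b1 b2)
  have htp : 0 < t ^ (n - 1) := by positivity
  nlinarith

end Vale.Agent.P210.R2.H597
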