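import Vale.Agent.P210.R2.H546.StepF

open Set Metric
open Vale.Agent.P210.R2.H53 (HCge)
open Vale.Agent.P210.R2.H401
open Vale.Agent.P210.R2.H546

namespace Vale.Agent.P210.R2.H597

/-- the conical case of the induction step -/
def Con (n : ℕ) (C : Sp → Prop) (j : ℕ) : Prop :=
  ∀ c₁ > 0, ∀ L > 0, ∃ a : ℕ, ∀ M₀ : ℕ, ∃ N : ℕ, M₀ ≤ N + a ∧ ∃ b₀ : ℕ, ∃ η > 0, ∀ S, C S →
  ∀ (y : S.X) (t : ℝ) (p : Fin j → S.X) (P : Set S.X) (b : ℕ), b₀ ≤ b → 2 ^ b ≤ t →
  S.K * (2 * t) ^ 2 ≤ η → (∀ i, PL S η (p i) y (2 * t)) →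
  (∀ i k, i < k → ∃ σ : ℝ, |σ| ≤ 1 / (16 * n) ∧
    S.GN (p i) (p k) y (8 * t) σ (η * S.V y (2 * t))) →
  P ⊆ closedBall y (2 * t) →
  (∀ z ∈ P, S.V z (2 * t / 2 ^ (N + a)) ≤ L * ((1 / 2) ^ (N + a)) ^ n * S.V z (2 * t)) →
  ¬ HCge n (t / 2 ^ b) P (c₁ * t ^ (n - 1))

/-- points near `z'` are seen from `x` as `z'` -/
theorem near {X : Type} [MetricSpace X] {j : ℕ} {h : Fin j → X → ℝ}
    (hL : ∀ i, LipschitzWith 1 (h i)) {x z z' : X} {g g₁ t θ : ℝ} (ht : 0 < t) (hg : 0 < g)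
    (hθ : 0 < θ) (hθ1 : θ ≤ 1) (hg₁ : g₁ ≤ g * θ / 4) (hd : g * t ≤ dist x z')
    (hz : dist z z' ≤ g₁ * t) (hh : ∀ i, |h i x - h i z'| ≤ θ * dist x z') :
    g / 2 * t ≤ dist x z ∧ ∀ i, |h i z - h i x| ≤ 2 * θ * dist x z := by
  have h1 : g₁ * t ≤ θ / 4 * dist x z' := by
    calc g₁ * t ≤ g * θ / 4 * t := by gcongr
      _ = θ / 4 * (g * t) := by ring
      _ ≤ _ := by gcongr
  have h2 : dist x z' ≤ dist x z + dist z z' := dist_triangle _ _ _
  have h3 : 0 < g * t := by positivity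
  have h4 : (1 - θ / 4) * dist x z' ≤ dist x z := by linarith
  refine ⟨?_, fun i => ?_⟩
  · nlinarith
  · have h5 : |h i z - h i z'| ≤ dist z z' := by
      have := (hL i).dist_le_mul z z'
      rwa [Real.dist_eq, NNReal.coe_one, one_mul] at this
    have h6 : |h i z - h i x| ≤ |h i z - h i z'| + |h i x - h i z'| := by
      have := abs_sub_le (h i z) (h i z') (h i x)
      rwa [abs_sub_comm (h i z') (h i x)] at this
    have h7 := hh i
    have h8 : |h i z - h i x| ≤ θ / 4 * dist x z' + θ * dist x z' := by linarith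
    have h9 : 0 < dist x z' := lt_of_lt_of_le h3 hd
    nlinarith [mul_pos hθ h9]

theorem sc1 (t : ℝ) (m : ℕ) : t / 8 / 2 ^ m = t / 2 ^ (m + 3) := by
  rw [pow_add _ m 3, div_div]; congr 1; ring

theorem sc2 (t : ℝ) (N m : ℕ) : (1 / 2 : ℝ) ^ (4 + N + m) * (2 * t) = t / 8 / 2 ^ N / 2 ^ m := by
  rw [pow_add, pow_add, one_div, inv_pow, inv_pow, inv_pow]
  field_simp
  norm_num
  ring

theorem sc3 {t : ℝ} {b b' N m : ℕ} (h : 2 ^ b ≤ t) (hb : b' + 3 + N + m ≤ b) :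
    (2 : ℝ) ^ b' ≤ t / 8 / 2 ^ N / 2 ^ m := by
  rw [div_div, div_div, le_div_iff₀ (by positivity)]
  refine le_trans ?_ h
  calc (2 : ℝ) ^ b' * (8 * (2 ^ N * 2 ^ m)) = 2 ^ (b' + 3 + N + m) := by
        rw [pow_add, pow_add, pow_add]; ring
    _ ≤ 2 ^ b := pow_le_pow_right₀ one_le_two hb

theorem sc4 (T : ℝ) (m : ℕ) : (1 / 2 : ℝ) ^ (m + 4) * (16 * T) = T / 2 ^ m := by
  rw [pow_add, one_div, inv_pow, inv_pow]
  field_simp
  norm_num

theorem sc5 (T : ℝ) (q m : ℕ) : T / 2 ^ q / 2 ^ m = T / 2 ^ (q + m) := by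
  rw [pow_add _ q, div_div]

theorem sc6 (c T : ℝ) (q m : ℕ) : c * (2 ^ q) ^ m * (T / 2 ^ q) ^ m = c * T ^ m := by
  rw [div_pow]; field_simp

theorem sc7 (T : ℝ) (q : ℕ) : T / 2 ^ q = (1 / 2) ^ q * T := by
  rw [one_div, inv_pow]; field_simp

theorem sc8 (d : ℝ) (n : ℕ) (hn : 0 < (n : ℝ)) : 2 * (1 / (32 * n)) * d = d / (16 * n) := by
  field_simp
  ring

theorem sc9 (c A t : ℝ) (m : ℕ) : (c * 8 ^ m / A) * (t / 8) ^ m = c * t ^ m / A := by
  rw [div_pow]; field_simp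

set_option maxHeartbeats 800000 in
theorem con (hflat : Stmt.FLAT) (hpig : Stmt.PIG) (hlim : Stmt.LIM) (hdens : Stmt.DENS)
    (hcov : Stmt.COVER) (hpair : Stmt.PAIR) {n : ℕ} {C : Sp → Prop} (hn : 2 ≤ n)
    (hI : Inp n C) {j b' : ℕ} {η' : ℝ} (hj : j + 2 ≤ n) (hη' : 0 < η')
    (hF : Fini n C j b' η') : Con n C j := by
  intro c₁ hc₁ L hL
  have hnR : (2 : ℝ) ≤ n := by exact_mod_cast hn
  obtain ⟨cF, hcF, hF⟩ := hF
  obtain ⟨cC, hcC, hcon⟩ := hI.coni η' hη'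
  set θ : ℝ := 1 / (32 * n) with hθ
  have hθ0 : 0 < θ := by positivity
  have hθ1 : θ ≤ 1 := by
    rw [hθ, div_le_one (by positivity)]; linarith
  obtain ⟨g, hg, hg1, hpair⟩ := hpair n j hj (1 / 2 ^ n) (by positivity) θ hθ0
  set g₁ : ℝ := g * θ / 4 with hg₁
  have hg₁0 : 0 < g₁ := by positivity
  have hg₁1 : g₁ ≤ 1 := by
    have : g * θ ≤ 1 * 1 := by gcongr
    rw [hg₁]; linarith
  set m : ℝ := min (min cF cC) 1 with hm
  have hm0 : 0 < m := lt_min (lt_min hcF hcC) one_pos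
  have hmF : m ≤ cF := (min_le_left _ _).trans (min_le_left _ _)
  have hmC : m ≤ cC := (min_le_left _ _).trans (min_le_right _ _)
  have hm1 : m ≤ 1 := min_le_right _ _
  obtain ⟨q, hq⟩ := exists_pow_lt_of_lt_one (show 0 < m * g / 4 by positivity)
    (show (1 / 2 : ℝ) < 1 by norm_num)
  have hqg : (1 / 2 : ℝ) ^ q ≤ g := by
    have : m * g ≤ 1 * g := by gcongr
    linarith
  obtain ⟨N₁, -, hcov1⟩ := hcov n (4 / g₁)
  obtain ⟨c₂, hc₂, hpair⟩ := hpair N₁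
  obtain ⟨N₂, -, hcov2⟩ := hcov n (2 ^ q)
  obtain ⟨N', hF⟩ := hF N₂ (c₂ * (2 ^ q) ^ (n - 1)) (by positivity)
  set bD : ℕ := q + N' + b' + 1 with hbD
  obtain ⟨e, he, hcon⟩ := hcon ((1 / 2) ^ (q + N' + 4)) (by positivity)
  refine ⟨q + N' + 4, fun M₀ => ?_⟩
  set a : ℕ := q + N' + 4 with ha
  obtain ⟨K₁, hflat⟩ := hflat n a e L he hL
  obtain ⟨D, hD, hcov3⟩ := hcov n 4
  obtain ⟨N₀, -, hcov4⟩ := hcov n 16
  obtain ⟨N, hN, hlim⟩ := hlim bD K₁ M₀ (N₀ * 2 ^ n * (D : ℝ) ^ K₁) (c₁ * 8 ^ (n - 1))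
    (by omega) (by positivity)
  refine ⟨N, by omega, N + bD + 3, ?_⟩
  obtain ⟨ηF, hηF, hF⟩ := hF ((1 / 2) ^ (4 + N + (q + N'))) (by positivity)
  refine ⟨min ηF (min e 1), lt_min hηF (lt_min he one_pos),
    fun S hS y t p P b hb hbt hK hp hG hP hV hHC => ?_⟩
  set η : ℝ := min ηF (min e 1) with hη
  have e1 : η ≤ ηF := min_le_left _ _
  have e2 : η ≤ e := (min_le_right _ _).trans (min_le_left _ _)
  have e3 : η ≤ 1 := (min_le_right _ _).trans (min_le_right _ _)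
  have hax := hI.ax S hS
  have ht : 0 < t := lt_of_lt_of_le (by positivity) hbt
  have hKs : ∀ s, 0 ≤ s → s ≤ 2 * t → S.K * s ^ 2 ≤ η := fun s h0 h1 => by
    have : s ^ 2 ≤ (2 * t) ^ 2 := by gcongr
    exact (mul_le_mul_of_nonneg_left this hax.Kpos.le).trans hK
  -- the flat scales
  obtain ⟨B, hB, hHC1⟩ := hpig S.X n N K₁ (t / 2 ^ b) (c₁ * t ^ (n - 1)) P
    (fun z B => ∀ k < N, k ∉ B → S.V z ((1 / 2) ^ a * (2 * t / 2 ^ k)) ≤
      (1 + e) * ((1 / 2) ^ a) ^ n * S.V z (2 * t / 2 ^ k)) (by positivity) (by positivity) hHC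
    (fun z hz => hflat S hax z (2 * t) N (by positivity) (hK.trans e3) (hV z hz))
  set A : Set S.X := {z ∈ P | ∀ k < N, k ∉ B → S.V z ((1 / 2) ^ a * (2 * t / 2 ^ k)) ≤
      (1 + e) * ((1 / 2) ^ a) ^ n * S.V z (2 * t / 2 ^ k)} with hA
  have hAP : A ⊆ P := sep_subset _ _
  -- density at a conical scale
  have hρ : t / 2 ^ b ≤ t / 8 / 2 ^ (N + bD) := by
    rw [sc1]
    gcongr
    exact one_le_two
  obtain ⟨k, hk, hkB, w, hw, hHC2⟩ := hdens S.X n bD D N N₀ K₁ (t / 2 ^ b) (t / 8)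
    (c₁ * 8 ^ (n - 1) / ((N : ℝ) + 1) ^ K₁) A B hn (by omega) hD (by positivity)
    (by positivity) hρ hB
    (fun k hk w => by
      have hp : 0 < t / 8 / 2 ^ k := by positivity
      have hk' : t / 8 / 2 ^ k ≤ t / 8 := div_le_self (by positivity) (one_le_pow₀ one_le_two)
      have e : t / 8 / 2 ^ (k + 1) = (t / 8 / 2 ^ k) / 2 := by rw [pow_succ]; field_simp
      obtain ⟨F, hF, hF'⟩ := (hcov3 S hax w (t / 8 / 2 ^ (k + 1)) (2 * (t / 8 / 2 ^ k))
        (by positivity) (by rw [e]; linarith) (by rw [e]; linarith)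
        ((hKs _ (by positivity) (by linarith)).trans e3)).2
        (A ∩ closedBall w (2 * (t / 8 / 2 ^ k))) inter_subset_right
      exact ⟨F, hF, hF'⟩)
    (by
      obtain ⟨F, hF, hF'⟩ := (hcov4 S hax y (t / 8) (2 * t) (by positivity) (by linarith)
        (by linarith) ((hKs _ (by positivity) le_rfl).trans e3)).2 A (hAP.trans hP)
      exact ⟨F, hF, hF'⟩)
    (by rw [sc9]; exact hHC1) hlim
  set T : ℝ := t / 8 / 2 ^ k with hT
  have hT0 : 0 < T := by positivity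
  have hTt : T ≤ t / 8 := div_le_self (by positivity) (one_le_pow₀ one_le_two)
  have hTN : t / 8 / 2 ^ N ≤ T := by
    rw [hT]; gcongr; exact one_le_two
  have h16 : 2 * t / 2 ^ k = 16 * T := by rw [hT]; ring
  -- the new pole
  set A' : Set S.X := A ∩ closedBall w (2 * T) with hA'
  have hA'A : A' ⊆ A := inter_subset_left
  obtain ⟨x, hx, z', hz', hHC3, hdist, hhz⟩ := hpair S.X A' w T (T / 2 ^ bD) g₁
    (fun i z => dist (p i) z) hT0 (by positivity)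
    (by
      have h1 : (1 / 2 : ℝ) ^ bD ≤ (1 / 2) ^ q :=
        pow_le_pow_of_le_one (by norm_num) (by norm_num) (by omega)
      rw [sc7]
      have := h1.trans hqg
      gcongr)
    hg₁0 inter_subset_right
    (by
      have : 1 / 2 ^ n * T ^ (n - 1) = T ^ (n - 1) / 2 ^ n := by ring
      rw [this]; exact hHC2)
    (by
      obtain ⟨F, hF, hF'⟩ := (hcov1 S hax w (g₁ * T / 2) (2 * T) (by positivity)
        (by nlinarith) (by
          have : 4 / g₁ * (g₁ * T / 2) = 2 * T := by field_simp; norm_num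
          rw [this])
        ((hKs _ (by positivity) (by linarith)).trans e3)).2 A' inter_subset_right
      exact ⟨F, hF, hF'⟩)
    (fun i => LipschitzWith.dist_right (p i))
  set P' : Set S.X := A' ∩ closedBall z' (g₁ * T) with hP'
  have hxA : x ∈ A := hA'A hx
  have hxw : dist x w ≤ 2 * T := hx.2
  have hxy : dist x y ≤ 2 * t := hP (hAP hxA)
  have hnear : ∀ z ∈ P', g / 2 * T ≤ dist x z ∧
      ∀ i, |dist (p i) z - dist (p i) x| ≤ 2 * θ * dist x z := fun z hz =>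
    near (h := fun i z => dist (p i) z) (fun i => LipschitzWith.dist_right (p i)) hT0 hg hθ0
      hθ1 le_rfl hdist hz.2 hhz
  have hxz : ∀ z ∈ P', dist x z ≤ 4 * T := fun z hz => by
    have h1 : dist z w ≤ 2 * T := hz.1.2
    have := dist_triangle_right x z w
    linarith
  have hq' : T / 2 ^ q ≤ m * g / 4 * T := by
    rw [sc7]
    gcongr
  have hq2 : ∀ z ∈ P', 2 * (T / 2 ^ q) ≤ m * dist x z := fun z hz => by
    have h1 := (hnear z hz).1
    have h2 : m * (g / 2 * T) ≤ m * dist x z := by gcongr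
    linarith
  have hscale : (T / 2 ^ q) / 2 ^ N' = T / 2 ^ (q + N') := sc5 _ _ _
  -- finish
  refine hF S hS y x t (T / 2 ^ q) (T / 2 ^ bD) p P' ht (hK.trans e1)
    (fun i => pl_mono hax (by positivity) (hp i) e1) (fun i i' hii => ?_) hxy
    ((inter_subset_left.trans hA'A).trans (hAP.trans hP)) ?_ ?_ ?_ ?_ ?_ ?_ ?_ (by positivity)
    ?_ ?_
  · obtain ⟨σ, hσ, h⟩ := hG i i' hii
    have hv := hax.pos y (2 * t) (by positivity)
    refine ⟨σ, hσ, hax.gn _ _ _ _ _ _ _ _ _ (by rw [dist_self]; linarith) ?_ h⟩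
    gcongr
  · have : T / 2 ^ q ≤ T := div_le_self hT0.le (one_le_pow₀ one_le_two)
    linarith
  · rw [hscale, sc2]
    gcongr
  · rw [hscale]
    have h1 : t / 8 / 2 ^ N / 2 ^ (q + N') ≤ T / 2 ^ (q + N') := by gcongr
    exact (sc3 hbt (by omega)).trans h1
  · intro z hz
    refine (hq2 z hz).trans ?_
    gcongr
  · intro z hz i
    exact ((hnear z hz).2 i).trans (le_of_eq (sc8 _ n (by linarith)))
  · intro z hz s hs1 hs2
    rw [hscale] at hs1
    have hxB : S.V x ((1 / 2) ^ a * (2 * t / 2 ^ k)) ≤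
      (1 + e) * ((1 / 2) ^ a) ^ n * S.V x (2 * t / 2 ^ k) := hxA.2 k hk hkB
    rw [h16] at hxB
    refine hcon S hS x z (16 * T) s (by positivity)
      ((hKs _ (by positivity) (by linarith)).trans e2) hxB ?_ ?_ ?_
    · have := hxz z hz
      linarith
    · exact le_trans (le_of_eq (sc4 _ _)) hs1
    · refine hs2.trans ((hq2 z hz).trans ?_)
      gcongr
  · obtain ⟨F, hF, hF'⟩ := (hcov2 S hax z' (T / 2 ^ q) T (by positivity)
      (div_le_self hT0.le (one_le_pow₀ one_le_two)) (le_of_eq (by field_simp))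
      ((hKs _ (by positivity) (by linarith)).trans e3)).2 P' (by
        refine inter_subset_right.trans (closedBall_subset_closedBall ?_)
        nlinarith)
    exact ⟨F, hF, hF'⟩
  · have h1 : (2 : ℝ) ^ (q + (N' + b')) ≤ 2 ^ bD := pow_le_pow_right₀ one_le_two (by omega)
    exact (div_le_div_of_nonneg_left hT0.le (by positivity) h1).trans (sc5 T q (N' + b')).ge
  · rw [sc6]
    exact hHC3

end Vale.Agent.P210.R2.H597
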